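import Vale.Agent.P207.N3.H387.Feed

/-!
# P207, line N3: change of the coordinates of a half by an isometry (helper387)
-/

open Set Filter Topology Metric Asymptotics InnerProductSpace MeasureTheory
open scoped ContDiff Gradient RealInnerProductSpace

noncomputable section

namespace Vale.Agent.P207.N3.H387

open Jet H70

section conj

variable (σ : E2 ≃ₗᵢ[ℝ] E2)

/-- the isometry as a continuous linear equivalence -/
def ce : E2 ≃L[ℝ] E2 := σ.toContinuousLinearEquiv

/-- the isometry of the product -/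
def cp : (E2 × E2) ≃L[ℝ] (E2 × E2) := (ce σ.symm).prodCongr (ce σ.symm)

lemma cp_apply (z : E2 × E2) : cp σ z = (σ.symm z.1, σ.symm z.2) := rfl

lemma fderiv_right {V : Type*} [NormedAddCommGroup V] [NormedSpace ℝ V] (f : E2 → V) (q v : E2) :
    fderiv ℝ (fun x => f (σ.symm x)) q v = fderiv ℝ f (σ.symm q) (σ.symm v) := by
  have h := (ce σ.symm).comp_right_fderiv (f := f) (x := q)
  have h2 := congrArg (fun L : E2 →L[ℝ] V => L v) h
  exact h2

lemma fderiv_left (F : E2 → E2) (q v : E2) :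
    fderiv ℝ (fun x => σ (F x)) q v = σ (fderiv ℝ F q v) := by
  have h := (ce σ).comp_fderiv (f := F) (x := q)
  have h2 := congrArg (fun L : E2 →L[ℝ] E2 => L v) h
  exact h2

lemma fderiv_conj (F : E2 → E2) (q v : E2) :
    fderiv ℝ (fun x => σ (F (σ.symm x))) q v = σ (fderiv ℝ F (σ.symm q) (σ.symm v)) := by
  rw [fderiv_left σ (fun x => F (σ.symm x)), fderiv_right]

lemma fderiv_conj2 (F : E2 × E2 → E2) (z v : E2 × E2) :
    fderiv ℝ (fun x : E2 × E2 => σ (F (σ.symm x.1, σ.symm x.2))) z v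
      = σ (fderiv ℝ F (σ.symm z.1, σ.symm z.2) (σ.symm v.1, σ.symm v.2)) := by
  have h := (ce σ).comp_fderiv (f := fun x => F (cp σ x)) (x := z)
  have h1 := (cp σ).comp_right_fderiv (f := F) (x := z)
  have h2 := congrArg (fun L : E2 × E2 →L[ℝ] E2 => L v) h
  have h3 := congrArg (fun L : E2 × E2 →L[ℝ] E2 => L v) h1
  refine h2.trans ?_
  exact congrArg σ h3

lemma grad_conj (f : E2 → ℝ) (q : E2) : ∇ (fun x => f (σ.symm x)) q = σ (∇ f (σ.symm q)) := by
  refine ext_inner_right ℝ fun v => ?_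
  have e1 : ⟪∇ (fun x => f (σ.symm x)) q, v⟫ = fderiv ℝ (fun x => f (σ.symm x)) q v :=
    inner_gradient_left (𝕜 := ℝ)
  have e2 : ⟪∇ f (σ.symm q), σ.symm v⟫ = fderiv ℝ f (σ.symm q) (σ.symm v) :=
    inner_gradient_left (𝕜 := ℝ)
  rw [e1, fderiv_right, ← e2, ← σ.inner_map_map, σ.apply_symm_apply]

lemma grad_conj' (f : E2 → ℝ) :
    ∇ (fun x => f (σ.symm x)) = fun q => σ (∇ f (σ.symm q)) := by
  ext1 q
  exact grad_conj σ f q

lemma det_conj (F : E2 → E2) (q : E2) :
    (fderiv ℝ (fun x => σ (F (σ.symm x))) q).det = (fderiv ℝ F (σ.symm q)).det := by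
  have h : (fderiv ℝ (fun x => σ (F (σ.symm x))) q : E2 →ₗ[ℝ] E2)
      = (σ.toLinearEquiv : E2 →ₗ[ℝ] E2) ∘ₗ (fderiv ℝ F (σ.symm q) : E2 →ₗ[ℝ] E2) ∘ₗ
        (σ.toLinearEquiv.symm : E2 →ₗ[ℝ] E2) := by
    ext1 v
    exact fderiv_conj σ F q v
  unfold ContinuousLinearMap.det
  rw [h, LinearMap.det_conj]

lemma ball_symm {r : ℝ} {q : E2} (h : q ∈ ball (0 : E2) r) : σ.symm q ∈ ball (0 : E2) r := by
  rw [mem_ball_zero_iff] at h ⊢
  rwa [σ.symm.norm_map]

lemma ball_map {r : ℝ} {q : E2} (h : q ∈ ball (0 : E2) r) : σ q ∈ ball (0 : E2) r := by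
  rw [mem_ball_zero_iff] at h ⊢
  rwa [σ.norm_map]

lemma iter_conj (f : E2 → ℝ) (q : E2) (k : ℕ) :
    iteratedFDeriv ℝ k (fun x => f (σ.symm x)) q
      = (iteratedFDeriv ℝ k f (σ.symm q)).compContinuousLinearMap
        fun _ => (ce σ.symm : E2 →L[ℝ] E2) := by
  have h := (ce σ.symm).iteratedFDerivWithin_comp_right f (s := univ) uniqueDiffOn_univ
    (x := q) (mem_univ _) k
  rw [preimage_univ, iteratedFDerivWithin_univ, iteratedFDerivWithin_univ] at h
  exact h

lemma iter_cont {S : E2 → E2 → ℝ} {r : ℝ} (k : ℕ)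
    (h : ContinuousOn (fun z : E2 × E2 => iteratedFDeriv ℝ k (S z.1) z.2)
      (ball 0 r ×ˢ ball 0 r)) :
    ContinuousOn (fun z : E2 × E2 =>
      iteratedFDeriv ℝ k (fun x => S (σ.symm z.1) (σ.symm x)) z.2) (ball 0 r ×ˢ ball 0 r) := by
  have e : (fun z : E2 × E2 => iteratedFDeriv ℝ k (fun x => S (σ.symm z.1) (σ.symm x)) z.2)
      = fun z => (ContinuousMultilinearMap.compContinuousLinearMapL
        (fun _ : Fin k => (ce σ.symm : E2 →L[ℝ] E2)))
        ((fun z : E2 × E2 => iteratedFDeriv ℝ k (S z.1) z.2) (cp σ z)) := by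
    ext1 z
    rw [iter_conj σ (S (σ.symm z.1))]
    rfl
  rw [e]
  refine (ContinuousLinearMap.continuous _).comp_continuousOn ?_
  exact h.comp (cp σ).continuous.continuousOn fun z hz => ⟨ball_symm σ hz.1, ball_symm σ hz.2⟩

lemma conj_symp (H : Half) : ∀ z ∈ ball (0 : E2) H.r ×ˢ ball (0 : E2) H.r, ∀ u v : E2 × E2,
    ⟪fderiv ℝ (fun z : E2 × E2 => σ (H.a (σ.symm z.1, σ.symm z.2))) z u,
      fderiv ℝ (fun z : E2 × E2 => σ (H.b (σ.symm z.1, σ.symm z.2))) z v⟫
    - ⟪fderiv ℝ (fun z : E2 × E2 => σ (H.b (σ.symm z.1, σ.symm z.2))) z u,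
      fderiv ℝ (fun z : E2 × E2 => σ (H.a (σ.symm z.1, σ.symm z.2))) z v⟫
    = ⟪u.1, v.2⟫ - ⟪u.2, v.1⟫ := by
  intro z hz u v
  have e1 := fderiv_conj2 σ H.a z u
  have e2 := fderiv_conj2 σ H.b z v
  have e3 := fderiv_conj2 σ H.b z u
  have e4 := fderiv_conj2 σ H.a z v
  have h := H.symp (σ.symm z.1, σ.symm z.2) ⟨ball_symm σ hz.1, ball_symm σ hz.2⟩
    (σ.symm u.1, σ.symm u.2) (σ.symm v.1, σ.symm v.2)
  have i1 := σ.symm.inner_map_map u.1 v.2
  have i2 := σ.symm.inner_map_map u.2 v.1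
  rw [e1, e2, e3, e4, σ.inner_map_map, σ.inner_map_map, h]
  exact congrArg₂ (· - ·) i1 i2

/-- **the half in new coordinates** -/
def conj (H : Half) : Half where
  r := H.r
  r_pos := H.r_pos
  a := fun z => σ (H.a (σ.symm z.1, σ.symm z.2))
  b := fun z => σ (H.b (σ.symm z.1, σ.symm z.2))
  a_smooth := σ.contDiff.comp_contDiffOn (H.a_smooth.comp (cp σ).contDiff.contDiffOn
    fun z hz => ⟨ball_symm σ hz.1, ball_symm σ hz.2⟩)
  b_smooth := σ.contDiff.comp_contDiffOn (H.b_smooth.comp (cp σ).contDiff.contDiffOn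
    fun z hz => ⟨ball_symm σ hz.1, ball_symm σ hz.2⟩)
  N := fun q => σ (H.N (σ.symm q))
  M := fun q => σ (H.M (σ.symm q))
  a_zero := fun p hp => by
    simp only [map_zero, H.a_zero _ (ball_symm σ hp)]
  b_zero := fun q hq => by
    simp only [map_zero, H.b_zero _ (ball_symm σ hq)]
  a_axis := fun q hq => by
    simp only [map_zero, H.a_axis _ (ball_symm σ hq)]
  b_axis := fun p hp => by
    simp only [map_zero, H.b_axis _ (ball_symm σ hp)]
  symp := conj_symp σ H
  S := fun y q => H.S (σ.symm y) (σ.symm q)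
  S_smooth := fun y hy => (H.S_smooth _ (ball_symm σ hy)).comp σ.symm.contDiff.contDiffOn
    fun q hq => ball_symm σ hq
  S_cont := fun k => iter_cont σ k (H.S_cont k)
  S_val := fun y hy => by
    simp only [map_zero, H.S_val _ (ball_symm σ hy)]
  S_grad := fun y hy => by
    rw [grad_conj σ (H.S (σ.symm y)), map_zero, H.S_grad _ (ball_symm σ hy), σ.apply_symm_apply]
  S_zero := fun q hq => by
    simp only [map_zero, H.S_zero _ (ball_symm σ hq)]
  X := fun y q => H.X (σ.symm y) (σ.symm q)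
  X_smooth := fun y hy => (H.X_smooth _ (ball_symm σ hy)).comp σ.symm.contDiff.contDiffOn
    fun q hq => ball_symm σ hq
  X_cont := fun k => iter_cont σ k (H.X_cont k)
  X_val := fun y hy => by
    simp only [map_zero, H.X_val _ (ball_symm σ hy)]
  X_zero := fun q hq => by
    simp only [map_zero, H.X_zero _ (ball_symm σ hq)]
  ρ := H.ρ
  ρ_pos := H.ρ_pos
  ρ_le := H.ρ_le
  M_maps := fun y hy => ball_map σ (H.M_maps _ (ball_symm σ hy))
  S_maps := by
    intro y hy q hq
    have h := H.S_maps _ (ball_symm σ hy) _ (ball_symm σ hq)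
    rw [grad_conj σ (H.S (σ.symm y))]
    refine ⟨ball_map σ h.1, ?_⟩
    simp only [σ.symm_apply_apply]
    exact ball_map σ h.2
  S_inv := by
    intro y hy q hq
    have h := H.S_inv _ (ball_symm σ hy) _ (ball_symm σ hq)
    simp only [σ.symm_apply_apply]
    rw [grad_conj σ (H.S (σ.symm y)), grad_conj σ (H.S (H.M (σ.symm y)))]
    simp only [σ.symm_apply_apply]
    rw [h]
  X_inv := by
    intro y hy q hq
    have h := H.X_inv _ (ball_symm σ hy) _ (ball_symm σ hq)
    simp only [σ.symm_apply_apply, grad_conj' σ (H.S (σ.symm y))]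
    rw [det_conj σ (fun q => H.a (q, ∇ (H.S (σ.symm y)) q)), det_conj σ H.M, h]
  div := by
    intro χ hχ hc ht v
    have hs : ContDiff ℝ ∞ fun y => χ (σ y) := hχ.comp σ.contDiff
    have hsupp : tsupport (fun y => χ (σ y)) ⊆ ball 0 H.r := by
      have h1 : tsupport (fun y => χ (σ y)) ⊆ σ ⁻¹' tsupport χ :=
        closure_minimal (fun y hy => subset_tsupport χ hy)
          ((isClosed_tsupport χ).preimage σ.continuous)
      intro y hy
      have h2 := ball_symm σ (ht (h1 hy))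
      rwa [σ.symm_apply_apply] at h2
    have hcs : HasCompactSupport fun y => χ (σ y) :=
      hc.comp_homeomorph σ.toHomeomorph
    have h := H.div _ hs hcs hsupp (σ.symm v)
    have hmp : MeasurePreserving σ volume volume := σ.measurePreserving
    have he : MeasurableEmbedding σ := σ.toHomeomorph.measurableEmbedding
    rw [← hmp.integral_comp he]
    refine (integral_congr_ae (Eventually.of_forall fun y => ?_)).trans h
    simp only [σ.symm_apply_apply, grad_conj' σ (H.S y)]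
    rw [fderiv_conj σ (∇ (H.S y)), fderiv_right σ (H.X y), map_zero]
    have hg : ∇ χ (σ y) = σ (∇ (fun y => χ (σ y)) y) := by
      have h3 := grad_conj σ (fun y => χ (σ y)) (σ y)
      simp only [σ.apply_symm_apply, σ.symm_apply_apply] at h3
      exact h3
    rw [hg, σ.inner_map_map]

end conj

end Vale.Agent.P207.N3.H387
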