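import Vale.Agent.P207.N3.H387.TPart
import Vale.Agent.P207.N3.H578.Feed

/-!
# P207, line N3: the feed of the triangular systems (helper387)

`XPart` : the action on the jets of the densities (helper394).
`exists_dat` : the triangular system of a half; `feed` : the interface of helper578.
-/

open Set Filter Topology Metric Asymptotics InnerProductSpace
open scoped ContDiff Gradient RealInnerProductSpace

noncomputable section

namespace Vale.Agent.P207.N3.H387

open Jet H70

/-- the raw jets -/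
def raw (H : Half) (K : ℕ) (y : E2) : JJ K → ℝ
  | .inl a => jet (H.S y) a.1.1 a.1.2
  | .inr a => jet (H.X y) a.1.1 a.1.2

/-- the coefficient of `X_b` in `X_a (M y)` and of `T_b` in `T_a (M y)` -/
def tc (m₁ m₂ δ : ℝ) (a b : ℕ × ℕ) : ℝ :=
  (a.1.choose (a.1 - b.1) : ℝ) * m₁ ^ b.1 * δ ^ (a.1 - b.1) * m₂ ^ a.2

/-- the coefficient of `T_b`, `|b| = |a| + 1`, in `X_a (M y)` -/
def xc (m₁ m₂ c : ℝ) (k : ℕ) (y₂ : ℝ) (a b : ℕ × ℕ) : ℝ :=
  (a.1.choose (a.1 - b.1 - 1) : ℝ) * m₁ ^ b.1 * m₂ ^ a.2 *
    (c * k * y₂ ^ (k - 1)) ^ (a.1 - b.1 - 1) * (c * k * (k - 1) * y₂ ^ (k - 2)) * (b.1 + 1)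

/-- the action of `φ` on the jets of the densities -/
structure XPart (H : Half) (K : ℕ) (m₁ m₂ c : ℝ) (k : ℕ) where
  r : ℝ
  r_pos : 0 < r
  g : Ix K → (JJ K → ℝ) → ℝ
  smooth : ∀ a, ContDiffOn ℝ ∞ (g a) (ball 0 r)
  zero : ∀ a, g a 0 = 0
  dep : ∀ a, DependsOn (g a) {j | (∃ b : Ix (K + 1), j = .inl b ∧
    b.1.1 + b.1.2 ≤ a.1.1 + a.1.2) ∨ ∃ b : Ix K, j = .inr b ∧ b.1.1 + b.1.2 < a.1.1 + a.1.2}
  act : ∀ᶠ y in 𝓝 (0 : E2), ∀ a : Ix K, jet (H.X (H.M y)) a.1.1 a.1.2 =
    ∑ b : Ix K, (if b.1.1 + b.1.2 = a.1.1 + a.1.2 ∧ b.1.1 ≤ a.1.1 then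
      tc m₁ m₂ (c * k * y 1 ^ (k - 1)) a.1 b.1 * jet (H.X y) b.1.1 b.1.2 else 0)
    + ∑ b : Ix (K + 1), (if b.1.1 + b.1.2 = a.1.1 + a.1.2 + 1 ∧ b.1.1 + 1 ≤ a.1.1 then
      xc m₁ m₂ c k (y 1) a.1 b.1 * jet (H.S y) b.1.1 b.1.2 else 0)
    + g a (raw H K y)

lemma jetS_e {H : Half} {y : E2} (hy : y ∈ ball (0 : E2) H.r) :
    jet (H.S y) 1 0 = y 0 ∧ jet (H.S y) 0 1 = y 1 := by
  constructor
  · have h4 := grad_zero (H.S y) 0
    rw [H.S_grad y hy] at h4
    exact h4.symm
  · have h4 := grad_one (H.S y) 0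
    rw [H.S_grad y hy] at h4
    exact h4.symm

/-- a continuous linear form on a finite product -/
lemma clm_sum {ι : Type*} [Fintype ι] [DecidableEq ι] (L : (ι → ℝ) →L[ℝ] ℝ) (v : ι → ℝ) :
    L v = ∑ b, L (Pi.single b 1) * v b := by
  conv_lhs => rw [← Finset.univ_sum_single v]
  rw [map_sum]
  refine Finset.sum_congr rfl fun b _ => ?_
  have h : (Pi.single b (v b) : ι → ℝ) = v b • Pi.single b (1 : ℝ) := by
    rw [← Pi.single_smul, smul_eq_mul, mul_one]
  rw [h, map_smul, smul_eq_mul, mul_comm]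

theorem exists_dat {H : Half} {K : ℕ} {m₁ m₂ c : ℝ} {k : ℕ} (h1 : m₁ ≠ 0) (h2 : m₂ ≠ 0)
    (l1 : |m₁| < 1) (l2 : |m₂| < 1) (hres : c ≠ 0 → 1 ≤ k ∧ m₁ = m₂ ^ k)
    (hM : MForm H m₁ m₂ c k) (T : TPart H K m₁ m₂ c k) (X : XPart H K m₁ m₂ c k) :
    ∃ d : Dat K, d.m₁ = m₁ ∧ d.m₂ = m₂ ∧
      ∀ᶠ y in 𝓝 (0 : E2), raw H K (H.M y) = d.sys.F (raw H K y) := by
  classical
  -- the linear part
  set nl : Ix (K + 1) → Ix (K + 1) → ℝ := fun a b =>
    if 2 ≤ a.1.1 + a.1.2 then fderiv ℝ (T.g a) 0 (Pi.single b 1) else 0 with hnl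
  have hTat : ∀ a, ContDiffAt ℝ ∞ (T.g a) 0 := fun a =>
    (T.smooth a).contDiffAt (ball_mem_nhds 0 T.r_pos)
  have hXat : ∀ a, ContDiffAt ℝ ∞ (X.g a) 0 := fun a =>
    (X.smooth a).contDiffAt (ball_mem_nhds 0 X.r_pos)
  have hnl_len : ∀ a b, nl a b ≠ 0 → b.1.1 + b.1.2 < a.1.1 + a.1.2 := by
    intro a b hne
    by_contra hab
    apply hne
    simp only [hnl]
    split_ifs
    · have e1 : HasFDerivAt (T.g a) (fderiv ℝ (T.g a) 0) ((0 : ℝ) • Pi.single b (1 : ℝ)) := by
        rw [zero_smul]
        exact ((hTat a).differentiableAt (by simp)).hasFDerivAt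
      have e2 : HasDerivAt (fun s : ℝ => s • (Pi.single b (1 : ℝ) : Ix (K + 1) → ℝ))
          (Pi.single b (1 : ℝ)) 0 := by
        have := (hasDerivAt_id (0 : ℝ)).smul_const (Pi.single b (1 : ℝ) : Ix (K + 1) → ℝ)
        rwa [one_smul] at this
      have e3 := e1.comp_hasDerivAt (0 : ℝ) e2
      have e4 : (T.g a ∘ fun s : ℝ => s • (Pi.single b (1 : ℝ) : Ix (K + 1) → ℝ))
          = fun _ => (0 : ℝ) := by
        ext s
        rw [Function.comp_apply, ← T.zero a]
        refine T.dep a fun x hx => ?_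
        rw [Pi.smul_apply, Pi.single_apply, if_neg, smul_zero]
        · rfl
        · rintro rfl
          exact hab hx
      rw [e4] at e3
      exact e3.unique (hasDerivAt_const _ _)
    · rfl
  -- the nonlinear part
  set pr : (JJ K → ℝ) → Ix (K + 1) → ℝ := fun u b => u (.inl b) with hpr
  have hprs : ContDiff ℝ ∞ pr := contDiff_pi.2 fun b => contDiff_apply ℝ ℝ _
  have hprn : ∀ u, ‖pr u‖ ≤ ‖u‖ := fun u =>
    (pi_norm_le_iff_of_nonneg (norm_nonneg _)).2 fun b => norm_le_pi_norm u _
  have hpr0 : Tendsto pr (𝓝 0) (𝓝 0) := hprs.continuous.tendsto 0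
  set q : JJ K → (JJ K → ℝ) → ℝ := fun i u => match i with
    | .inl a => if 2 ≤ a.1.1 + a.1.2 then T.g a (pr u) - ∑ b, nl a b * u (.inl b) else 0
    | .inr a => X.g a u with hq
  have hlin : ∀ a : Ix (K + 1), 2 ≤ a.1.1 + a.1.2 → ∀ u : JJ K → ℝ,
      ∑ b, nl a b * u (.inl b) = fderiv ℝ (T.g a) 0 (pr u) := by
    intro a ha u
    rw [clm_sum]
    refine Finset.sum_congr rfl fun b _ => ?_
    simp only [hnl, if_pos ha, hpr]
  have hflat : ∀ i, ∃ C : ℝ, ∀ᶠ u in 𝓝 (0 : JJ K → ℝ), |q i u| ≤ C * ‖u‖ ^ od K i := by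
    intro i
    rcases i with a | a
    · by_cases ha : 2 ≤ a.1.1 + a.1.2
      · obtain ⟨C, hC⟩ := flat_two ((hTat a).of_le (by norm_cast)) (T.zero a)
        refine ⟨|C|, ?_⟩
        filter_upwards [hpr0.eventually hC] with u hu
        simp only [hq, if_pos ha, od]
        rw [hlin a ha u]
        refine hu.trans ?_
        exact mul_le_mul (le_abs_self C) (pow_le_pow_left₀ (norm_nonneg _) (hprn u) 2)
          (by positivity) (abs_nonneg C)
      · refine ⟨0, Eventually.of_forall fun u => ?_⟩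
        simp only [hq, if_neg ha, abs_zero, zero_mul, le_refl]
    · exact flat_one ((hXat a).of_le (by norm_cast)) (X.zero a)
  choose C hC using hflat
  obtain ⟨ρ, hρ, hρC⟩ := Metric.eventually_nhds_iff_ball.1 (eventually_all.2 hC)
  set r := min ρ (min T.r X.r) with hr
  have hr0 : 0 < r := lt_min hρ (lt_min T.r_pos X.r_pos)
  have hrT : r ≤ T.r := (min_le_right _ _).trans (min_le_left _ _)
  have hrX : r ≤ X.r := (min_le_right _ _).trans (min_le_right _ _)
  let d : Dat K :=
    { m₁ := m₁, m₂ := m₂, c := c, k := k, ne₁ := h1, ne₂ := h2, lt₁ := l1, lt₂ := l2, res := hres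
      nl := nl
      nl_len := hnl_len
      nl_res := by
        intro a b hne
        simp only [hnl] at hne
        split_ifs at hne with h
        · exact T.lin a b hne
        · exact absurd rfl hne
      q := q
      r := r
      r_pos := hr0
      q_base := by
        intro a ha
        ext u
        simp only [hq, ha]
        rfl
      q_dep := by
        intro i u v huv
        rcases i with a | a
        · simp only [hq]
          split_ifs with ha
          · have e1 : T.g a (pr u) = T.g a (pr v) :=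
              T.dep a fun b hb => huv (.inl b) ⟨b, rfl, Or.inl hb⟩
            have e2 : ∑ b, nl a b * u (.inl b) = ∑ b, nl a b * v (.inl b) := by
              refine Finset.sum_congr rfl fun b _ => ?_
              by_cases hb : nl a b = 0
              · rw [hb, zero_mul, zero_mul]
              · rw [huv (.inl b) ⟨b, rfl, Or.inl (hnl_len a b hb)⟩]
            rw [e1, e2]
          · rfl
        · exact X.dep a huv
      q_smooth := by
        intro i
        rcases i with a | a
        · simp only [hq]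
          by_cases ha : 2 ≤ a.1.1 + a.1.2
          · simp only [if_pos ha]
            refine ContDiffOn.sub ?_ ?_
            · refine (T.smooth a).comp hprs.contDiffOn fun u hu => ?_
              rw [mem_ball_zero_iff] at hu ⊢
              exact ((hprn u).trans_lt hu).trans_le hrT
            · exact (ContDiff.sum fun b _ => contDiff_const.mul (contDiff_apply ℝ ℝ _)).contDiffOn
          · simp only [if_neg ha]
            exact contDiffOn_const
        · exact (X.smooth a).mono (ball_subset_ball hrX)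
      q_flat := fun i => ⟨C i, fun u hu => hρC u (ball_subset_ball (min_le_left _ _) hu) i⟩ }
  refine ⟨d, rfl, rfl, ?_⟩
  have hMt : Tendsto H.M (𝓝 0) (𝓝 0) := by
    have := ((H.M_smooth (mem_ball_self H.r_pos)).continuousAt).tendsto
    rwa [H.M_zero] at this
  filter_upwards [T.act, X.act, hM, ball_mem_nhds (0 : E2) H.r_pos,
    hMt.eventually (ball_mem_nhds (0 : E2) H.r_pos)] with y hT hX hMy hyr hMr
  have hy2 : raw H K y (.inl (yl 1)) = y 1 := (jetS_e hyr).2
  ext i
  rw [d.sys_F, Fintype.sum_sum_type, hy2]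
  rcases i with a | a
  · -- the jets of the leaves
    have hz : ∑ b : Ix K, d.cc (.inl a) (.inr b) * y 1 ^ d.ex (.inl a) (.inr b) *
        raw H K y (.inr b) = 0 := by
      refine Finset.sum_eq_zero fun b _ => ?_
      simp [Dat.cc]
    rw [hz, add_zero]
    by_cases ha : 2 ≤ a.1.1 + a.1.2
    · have e0 : raw H K (H.M y) (.inl a) = jet (H.S (H.M y)) a.1.1 a.1.2 := rfl
      rw [e0, hT a ha]
      have e1 : d.q (.inl a) (raw H K y) = T.g a (H.T (K + 1) y)
          - ∑ b, nl a b * raw H K y (.inl b) := by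
        change (if 2 ≤ a.1.1 + a.1.2 then _ else _) = _
        rw [if_pos ha]
        rfl
      have e2 : d.θ (.inl a) * raw H K y (.inl a) = ∑ b : Ix (K + 1), if b = a then
          tht m₁ m₂ a.1 * jet (H.S y) a.1.1 a.1.2 else 0 := by
        rw [Finset.sum_ite_eq' Finset.univ a, if_pos (Finset.mem_univ a)]
        rfl
      rw [e1, e2, ← Finset.sum_add_distrib]
      have e3 : ∀ b : Ix (K + 1), (if b.1.1 + b.1.2 = a.1.1 + a.1.2 ∧ b.1.1 ≤ a.1.1 then
          (a.1.1.choose (a.1.1 - b.1.1) : ℝ) * m₁ ^ b.1.1 * (c * k * y 1 ^ (k - 1)) ^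
            (a.1.1 - b.1.1) * m₂ ^ a.1.2 * jet (H.S y) b.1.1 b.1.2 else 0)
          = ((if b = a then tht m₁ m₂ a.1 * jet (H.S y) a.1.1 a.1.2 else 0) +
            d.cc (.inl a) (.inl b) * y 1 ^ d.ex (.inl a) (.inl b) * raw H K y (.inl b))
            - nl a b * raw H K y (.inl b) := by
        intro b
        have f1 : d.cc (.inl a) (.inl b) = if b.1.1 + b.1.2 = a.1.1 + a.1.2 then
          (if b.1.1 < a.1.1 then (if a.1.1 + a.1.2 = 1 then c else d.ct a.1 b.1) else 0)
          else nl a b := rfl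
        have f2 : d.ex (.inl a) (.inl b) = if b.1.1 + b.1.2 = a.1.1 + a.1.2 then
          (k - 1) * (a.1.1 - b.1.1) else 0 := rfl
        have f3 : raw H K y (.inl b) = jet (H.S y) b.1.1 b.1.2 := rfl
        rw [f1, f2, f3]
        by_cases hc : b.1.1 + b.1.2 = a.1.1 + a.1.2
        · have f4 : nl a b = 0 := by
            by_contra h
            exact absurd (hnl_len a b h) (by omega)
          rw [f4, if_pos hc, if_pos hc]
          rcases lt_trichotomy b.1.1 a.1.1 with hb | hb | hb
          · have hne : b ≠ a := by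
              rintro rfl
              exact lt_irrefl _ hb
            rw [if_pos ⟨hc, hb.le⟩, if_pos hb, if_neg hne, if_neg (by omega)]
            change _ = 0 + (a.1.1.choose (a.1.1 - b.1.1) : ℝ) * m₁ ^ b.1.1 * m₂ ^ a.1.2 *
              (c * k) ^ (a.1.1 - b.1.1) * y 1 ^ ((k - 1) * (a.1.1 - b.1.1)) *
              jet (H.S y) b.1.1 b.1.2 - _
            rw [mul_pow, ← pow_mul]
            ring
          · have hba : b = a := Subtype.ext (Prod.ext hb (by omega))
            subst hba
            rw [if_pos ⟨rfl, le_rfl⟩, if_neg (lt_irrefl _), if_pos rfl, Nat.sub_self,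
              Nat.choose_zero_right, pow_zero]
            unfold tht
            push_cast
            ring
          · have hne : b ≠ a := by
              rintro rfl
              exact lt_irrefl _ hb
            rw [if_neg (fun h => absurd h.2 (by omega)), if_neg hne,
              if_neg (by omega : ¬ b.1.1 < a.1.1)]
            ring
        · have hne : b ≠ a := by
            rintro rfl
            exact hc rfl
          rw [if_neg (fun h => hc h.1), if_neg hc, if_neg hc, if_neg hne, pow_zero]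
          ring
      rw [Finset.sum_congr rfl fun b _ => e3 b, Finset.sum_sub_distrib]
      ring
    · -- the labels
      have ha1 : a.1.1 + a.1.2 = 1 := by
        have := Ix.one_le a
        omega
      have e1 : d.q (.inl a) (raw H K y) = 0 := by
        change (if 2 ≤ a.1.1 + a.1.2 then _ else _) = _
        rw [if_neg ha]
      have hnl0 : ∀ b, nl a b = 0 := fun b => by simp only [hnl, if_neg ha]
      rw [e1, add_zero]
      have e0 : raw H K (H.M y) (.inl a) = jet (H.S (H.M y)) a.1.1 a.1.2 := rfl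
      have f1 : ∀ b : Ix (K + 1), d.cc (.inl a) (.inl b) = if b.1.1 + b.1.2 = a.1.1 + a.1.2 then
          (if b.1.1 < a.1.1 then c else 0) else 0 := by
        intro b
        change (if b.1.1 + b.1.2 = a.1.1 + a.1.2 then
          (if b.1.1 < a.1.1 then (if a.1.1 + a.1.2 = 1 then c else d.ct a.1 b.1) else 0)
          else nl a b) = _
        rw [if_pos ha1, hnl0 b]
      have f2 : ∀ b : Ix (K + 1), d.ex (.inl a) (.inl b) = if b.1.1 + b.1.2 = a.1.1 + a.1.2 then
          (k - 1) * (a.1.1 - b.1.1) else 0 := fun b => rfl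
      rcases Nat.lt_or_ge 0 a.1.1 with hp | hp
      · have g1 : a.1.1 = 1 := by omega
        have g2 : a.1.2 = 0 := by omega
        rw [e0, g1, g2, (jetS_e hMr).1, hMy, Finset.sum_eq_single (yl 1)]
        · rw [f1, f2, yl_one, g1, g2]
          change m₁ * y 0 + c * y 1 ^ k = tht m₁ m₂ a.1 * jet (H.S y) a.1.1 a.1.2 +
            (if 0 + 1 = 1 + 0 then (if 0 < 1 then c else 0) else 0) *
              y 1 ^ (if 0 + 1 = 1 + 0 then (k - 1) * (1 - 0) else 0) * jet (H.S y) 0 1
          unfold tht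
          rw [g1, g2, (jetS_e hyr).1, (jetS_e hyr).2]
          simp only [Nat.zero_add, Nat.add_zero, if_true, Nat.lt_one_iff, Nat.sub_zero, mul_one,
            pow_one, pow_zero]
          by_cases hc : c = 0
          · rw [hc]; ring
          · have hk := (hres hc).1
            have e5 : y 1 ^ k = y 1 ^ (k - 1) * y 1 := by
              rw [← pow_succ]
              congr 1
              omega
            rw [e5]
            ring
        · intro b _ hb
          rw [f1]
          by_cases hc : b.1.1 + b.1.2 = a.1.1 + a.1.2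
          · rw [if_pos hc, if_neg, zero_mul, zero_mul]
            intro hlt
            apply hb
            refine Subtype.ext ?_
            rw [yl_one]
            exact Prod.ext (by simp only; omega) (by simp only; omega)
          · rw [if_neg hc, zero_mul, zero_mul]
        · intro hn
          exact absurd (Finset.mem_univ _) hn
      · have g1 : a.1.1 = 0 := by omega
        have g2 : a.1.2 = 1 := by omega
        rw [e0, g1, g2, (jetS_e hMr).2, hMy, Finset.sum_eq_zero, add_zero]
        · change m₂ * y 1 = tht m₁ m₂ a.1 * jet (H.S y) a.1.1 a.1.2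
          unfold tht
          rw [g1, g2, (jetS_e hyr).2]
          ring
        · intro b _
          rw [f1]
          split_ifs with hc hd
          · omega
          · rw [zero_mul, zero_mul]
          · rw [zero_mul, zero_mul]
  · -- the jets of the densities
    have e0 : raw H K (H.M y) (.inr a) = jet (H.X (H.M y)) a.1.1 a.1.2 := rfl
    have e1 : d.q (.inr a) (raw H K y) = X.g a (raw H K y) := rfl
    have e2 : d.θ (.inr a) * raw H K y (.inr a) = ∑ b : Ix K, if b = a then
        tht m₁ m₂ a.1 * jet (H.X y) a.1.1 a.1.2 else 0 := by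
      rw [Finset.sum_ite_eq' Finset.univ a, if_pos (Finset.mem_univ a)]
      rfl
    rw [e0, hX a, e1]
    congr 1
    have e3 : ∀ b : Ix K, (if b.1.1 + b.1.2 = a.1.1 + a.1.2 ∧ b.1.1 ≤ a.1.1 then
        tc m₁ m₂ (c * k * y 1 ^ (k - 1)) a.1 b.1 * jet (H.X y) b.1.1 b.1.2 else 0)
        = (if b = a then tht m₁ m₂ a.1 * jet (H.X y) a.1.1 a.1.2 else 0) +
          d.cc (.inr a) (.inr b) * y 1 ^ d.ex (.inr a) (.inr b) * raw H K y (.inr b) := by
      intro b
      have f1 : d.cc (.inr a) (.inr b) = if b.1.1 + b.1.2 = a.1.1 + a.1.2 ∧ b.1.1 < a.1.1 then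
        d.ct a.1 b.1 else 0 := rfl
      have f2 : d.ex (.inr a) (.inr b) = (k - 1) * (a.1.1 - b.1.1) := rfl
      have f3 : raw H K y (.inr b) = jet (H.X y) b.1.1 b.1.2 := rfl
      rw [f1, f2, f3]
      by_cases hc : b.1.1 + b.1.2 = a.1.1 + a.1.2
      · rcases lt_trichotomy b.1.1 a.1.1 with hb | hb | hb
        · have hne : b ≠ a := by
            rintro rfl
            exact lt_irrefl _ hb
          rw [if_pos ⟨hc, hb.le⟩, if_neg hne, if_pos ⟨hc, hb⟩]
          change (a.1.1.choose (a.1.1 - b.1.1) : ℝ) * m₁ ^ b.1.1 * (c * k * y 1 ^ (k - 1)) ^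
            (a.1.1 - b.1.1) * m₂ ^ a.1.2 * _ = 0 + (a.1.1.choose (a.1.1 - b.1.1) : ℝ) *
              m₁ ^ b.1.1 * m₂ ^ a.1.2 * (c * k) ^ (a.1.1 - b.1.1) *
              y 1 ^ ((k - 1) * (a.1.1 - b.1.1)) * jet (H.X y) b.1.1 b.1.2
          rw [mul_pow (c * k), ← pow_mul]
          ring
        · have hba : b = a := Subtype.ext (Prod.ext hb (by omega))
          subst hba
          rw [if_pos ⟨rfl, le_rfl⟩, if_pos rfl, if_neg (fun h => lt_irrefl _ h.2)]
          unfold tht tc
          rw [Nat.sub_self, Nat.choose_zero_right, pow_zero]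
          push_cast
          ring
        · have hne : b ≠ a := by
            rintro rfl
            exact lt_irrefl _ hb
          rw [if_neg (fun h => absurd h.2 (by omega)), if_neg hne,
            if_neg (fun h => absurd h.2 (by omega))]
          ring
      · have hne : b ≠ a := by
          rintro rfl
          exact hc rfl
        rw [if_neg (fun h => hc h.1), if_neg hne, if_neg (fun h => hc h.1)]
        ring
    have e4 : ∀ b : Ix (K + 1),
        (if b.1.1 + b.1.2 = a.1.1 + a.1.2 + 1 ∧ b.1.1 + 1 ≤ a.1.1 then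
          xc m₁ m₂ c k (y 1) a.1 b.1 * jet (H.S y) b.1.1 b.1.2 else 0)
        = d.cc (.inr a) (.inl b) * y 1 ^ d.ex (.inr a) (.inl b) * raw H K y (.inl b) := by
      intro b
      have f1 : d.cc (.inr a) (.inl b) =
        if b.1.1 + b.1.2 = a.1.1 + a.1.2 + 1 ∧ b.1.1 + 1 ≤ a.1.1 then
        (a.1.1.choose (a.1.1 - b.1.1 - 1) : ℝ) * m₁ ^ b.1.1 * m₂ ^ a.1.2 *
        (c * k) ^ (a.1.1 - b.1.1 - 1) * (c * k * (k - 1)) * (b.1.1 + 1) else 0 := rfl
      have f2 : d.ex (.inr a) (.inl b) = (k - 1) * (a.1.1 - b.1.1 - 1) + (k - 2) := rfl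
      have f3 : raw H K y (.inl b) = jet (H.S y) b.1.1 b.1.2 := rfl
      rw [f1, f2, f3]
      split_ifs with hc
      · unfold xc
        rw [mul_pow (c * k), ← pow_mul, pow_add]
        ring
      · ring
    rw [Finset.sum_congr rfl fun b _ => e3 b, Finset.sum_congr rfl fun b _ => e4 b,
      Finset.sum_add_distrib, e2]
    ring

/-- **the feed** -/
theorem feed {H : Half} {K : ℕ} {m₁ m₂ c κ ℓ : ℝ} {k : ℕ} (hκ0 : 0 < κ) (hℓ0 : 0 < ℓ)
    (h1 : |m₁| = Real.exp (-κ)) (h2 : |m₂| = Real.exp (-ℓ))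
    (hres : c ≠ 0 → 1 ≤ k ∧ m₁ = m₂ ^ k)
    (hM : MForm H m₁ m₂ c k) (T : TPart H K m₁ m₂ c k) (X : XPart H K m₁ m₂ c k) :
    Nonempty (H578.Feed H κ ℓ K) := by
  have n1 : m₁ ≠ 0 := by
    rintro rfl
    rw [abs_zero] at h1
    exact absurd h1.symm (Real.exp_ne_zero _)
  have n2 : m₂ ≠ 0 := by
    rintro rfl
    rw [abs_zero] at h2
    exact absurd h2.symm (Real.exp_ne_zero _)
  have l1 : |m₁| < 1 := by
    rw [h1, Real.exp_lt_one_iff]
    linarith
  have l2 : |m₂| < 1 := by
    rw [h2, Real.exp_lt_one_iff]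
    linarith
  obtain ⟨d, rfl, rfl, hact⟩ := exists_dat n1 n2 l1 l2 hres hM T X
  have hθ : ∀ a : ℕ × ℕ, |tht d.m₁ d.m₂ a| = Real.exp (-(κ * a.1 + ℓ * a.2)) := by
    intro a
    unfold tht
    rw [abs_mul, abs_pow, abs_pow, h1, h2, ← Real.exp_nat_mul, ← Real.exp_nat_mul, ← Real.exp_add]
    congr 1
    ring
  refine ⟨{ J := JJ K
            lab := Sum.map Subtype.val Subtype.val
            lab_inj := Sum.map_injective.2 ⟨Subtype.val_injective, Subtype.val_injective⟩
            lab_inl := ?_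
            lab_inr := ?_
            S := d.sys
            wt := ?_
            base := ?_
            ord_inl := ?_
            D_inl := ?_
            D_base := ?_
            ℓ_inl := ?_
            D_inr := ?_
            act := ?_ }⟩
  · intro a
    constructor
    · rintro ⟨j, hj⟩
      rcases j with b | b
      · have hb := Sum.inl.inj hj
        subst hb
        exact ⟨Ix.one_le b, Ix.le b⟩
      · cases hj
    · intro ha
      exact ⟨.inl ⟨a, mem_idx.2 ha⟩, rfl⟩
  · intro a
    constructor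
    · rintro ⟨j, hj⟩
      rcases j with b | b
      · cases hj
      · have hb := Sum.inr.inj hj
        subst hb
        exact ⟨Ix.one_le b, Ix.le b⟩
    · intro ha
      exact ⟨.inr ⟨a, mem_idx.2 ha⟩, rfl⟩
  · intro j
    rcases j with a | a
    · exact hθ a.1
    · exact hθ a.1
  · intro i j hj
    rcases j with b | b
    · have hb : b.1 = H254.e i := Sum.inl.inj hj
      refine ⟨b, rfl, ?_⟩
      rw [hb]
      fin_cases i <;> simp [H254.e]
    · cases hj
  · intro j a hj _
    rcases j with b | b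
    · exact le_rfl
    · cases hj
  · intro j a hj ha x hx
    rcases j with b | b
    · have hb : b.1 = a := Sum.inl.inj hj
      obtain ⟨e, rfl, he⟩ := hx
      refine ⟨e.1, rfl, ?_⟩
      unfold H254.len at ha ⊢
      rw [← hb] at ha ⊢
      omega
    · cases hj
  · intro i j hj x hx
    rcases j with b | b
    · obtain ⟨e, rfl, he⟩ := hx
      exact ⟨e.1, rfl⟩
    · cases hj
  · intro j a hj x hx
    rcases j with b | b
    · rcases x with e | e
      · exact ⟨e.1, rfl⟩
      · exact absurd (d.pr_of_cc (d.cc_of_ll hx)) (by simp [Dat.Pr])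
    · cases hj
  · intro j a hj x hx
    rcases j with b | b
    · cases hj
    · have hb : b.1 = a := Sum.inr.inj hj
      unfold H254.len
      rw [← hb]
      rcases hx with ⟨e, rfl, he⟩ | ⟨e, rfl, he⟩
      · exact Or.inl ⟨e.1, rfl, he⟩
      · exact Or.inr ⟨e.1, rfl, he⟩
  · have key : ∀ y, (fun j : JJ K => H578.rj H (Sum.map Subtype.val Subtype.val j) y)
        = raw H K y := by
      intro y
      ext j
      rcases j with b | b <;> rfl
    simp only [key]
    exact hact

end Vale.Agent.P207.N3.H387
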