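import Vale.Agent.P207.N3.H387.Tri

/-!
# P207, line N3: sums over the labels, orders of vanishing (helper387)
-/

open Set Filter Topology Metric Asymptotics
open scoped ContDiff

noncomputable section

namespace Vale.Agent.P207.N3.H387

open Jet H70

/-- the terms with `|b| = |a|`, `b₁ < a₁` -/
lemma sum_top {K : ℕ} (a : Ix K) (f : ℕ × ℕ → ℝ) :
    ∑ b : Ix K, (if b.1.1 + b.1.2 = a.1.1 + a.1.2 ∧ b.1.1 < a.1.1 then f b.1 else 0)
      = ∑ j ∈ Finset.range a.1.1, f (a.1.1 - (j + 1), a.1.2 + (j + 1)) := by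
  have h0 := Finset.sum_coe_sort (idx K)
    (fun b => if b.1 + b.2 = a.1.1 + a.1.2 ∧ b.1 < a.1.1 then f b else 0)
  rw [h0, ← Finset.sum_filter]
  refine Finset.sum_nbij' (fun b => a.1.1 - b.1 - 1)
    (fun j => (a.1.1 - (j + 1), a.1.2 + (j + 1))) ?_ ?_ ?_ ?_ ?_
  · intro b hb
    rw [Finset.mem_filter] at hb
    rw [Finset.mem_range]
    omega
  · intro j hj
    rw [Finset.mem_range] at hj
    rw [Finset.mem_filter, mem_idx]
    have h1 := Ix.one_le a
    have h2 := Ix.le a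
    refine ⟨⟨?_, ?_⟩, ?_, ?_⟩ <;> simp only <;> omega
  · intro b hb
    rw [Finset.mem_filter] at hb
    refine Prod.ext ?_ ?_ <;> simp only <;> omega
  · intro j hj
    rw [Finset.mem_range] at hj
    simp only
    omega
  · intro b hb
    rw [Finset.mem_filter] at hb
    congr 1
    refine Prod.ext ?_ ?_ <;> simp only <;> omega

/-- the terms with `|b| = |a| + 1`, `b₁ + 1 ≤ a₁` -/
lemma sum_next {K : ℕ} (a : Ix K) (f : ℕ × ℕ → ℝ) :
    ∑ b : Ix (K + 1), (if b.1.1 + b.1.2 = a.1.1 + a.1.2 + 1 ∧ b.1.1 + 1 ≤ a.1.1 then f b.1 else 0)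
      = ∑ j ∈ Finset.range a.1.1, f (a.1.1 - j - 1, a.1.2 + j + 2) := by
  have h0 := Finset.sum_coe_sort (idx (K + 1))
    (fun b => if b.1 + b.2 = a.1.1 + a.1.2 + 1 ∧ b.1 + 1 ≤ a.1.1 then f b else 0)
  rw [h0, ← Finset.sum_filter]
  refine Finset.sum_nbij' (fun b => a.1.1 - b.1 - 1)
    (fun j => (a.1.1 - j - 1, a.1.2 + j + 2)) ?_ ?_ ?_ ?_ ?_
  · intro b hb
    rw [Finset.mem_filter] at hb
    rw [Finset.mem_range]
    omega
  · intro j hj
    rw [Finset.mem_range] at hj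
    rw [Finset.mem_filter, mem_idx]
    have h1 := Ix.one_le a
    have h2 := Ix.le a
    refine ⟨⟨?_, ?_⟩, ?_, ?_⟩ <;> simp only <;> omega
  · intro b hb
    rw [Finset.mem_filter] at hb
    refine Prod.ext ?_ ?_ <;> simp only <;> omega
  · intro j hj
    rw [Finset.mem_range] at hj
    simp only
    omega
  · intro b hb
    rw [Finset.mem_filter] at hb
    congr 1
    refine Prod.ext ?_ ?_ <;> simp only <;> omega

section flat

variable {E : Type*} [NormedAddCommGroup E] [NormedSpace ℝ E]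

/-- a smooth function minus its linear part is of second order -/
lemma flat_two {f : E → ℝ} (hf : ContDiffAt ℝ 2 f 0) (h0 : f 0 = 0) :
    ∃ C : ℝ, ∀ᶠ v in 𝓝 (0 : E), |f v - fderiv ℝ f 0 v| ≤ C * ‖v‖ ^ 2 := by
  have h1 : ContDiffAt ℝ 1 (fderiv ℝ f) 0 := hf.fderiv_right (m := 1) (by norm_num)
  obtain ⟨L, t, ht, hL⟩ := h1.exists_lipschitzOnWith
  have hd : ∀ᶠ v in 𝓝 (0 : E), DifferentiableAt ℝ f v := by
    filter_upwards [(hf.of_le (m := 1) (by norm_num)).eventually (by simp)] with v hv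
    exact hv.differentiableAt one_ne_zero
  obtain ⟨δ, hδ, hB⟩ := Metric.eventually_nhds_iff_ball.1 ((eventually_mem_set.2 ht).and hd)
  refine ⟨L, ?_⟩
  filter_upwards [ball_mem_nhds (0 : E) hδ] with v hv
  have hsub : closedBall (0 : E) ‖v‖ ⊆ ball 0 δ := by
    intro z hz
    rw [mem_closedBall_zero_iff] at hz
    rw [mem_ball_zero_iff] at hv ⊢
    exact hz.trans_lt hv
  have h2 : ∀ z ∈ closedBall (0 : E) ‖v‖, ‖fderiv ℝ f z - fderiv ℝ f 0‖ ≤ L * ‖v‖ := by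
    intro z hz
    have h3 := hL.dist_le_mul z (hB z (hsub hz)).1 0 (hB 0 (mem_ball_self hδ)).1
    rw [dist_eq_norm, dist_eq_norm, sub_zero] at h3
    rw [mem_closedBall_zero_iff] at hz
    exact h3.trans (mul_le_mul_of_nonneg_left hz L.2)
  have h4 := (convex_closedBall (0 : E) ‖v‖).norm_image_sub_le_of_norm_hasFDerivWithin_le'
    (f := f) (f' := fderiv ℝ f) (φ := fderiv ℝ f 0) (C := L * ‖v‖)
    (fun z hz => ((hB z (hsub hz)).2.hasFDerivAt).hasFDerivWithinAt) h2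
    (mem_closedBall_self (norm_nonneg v)) (mem_closedBall_zero_iff.2 le_rfl : v ∈ closedBall (0 : E) ‖v‖)
  rw [sub_zero, h0, sub_zero, Real.norm_eq_abs] at h4
  calc |f v - fderiv ℝ f 0 v| ≤ L * ‖v‖ * ‖v‖ := h4
    _ = L * ‖v‖ ^ 2 := by ring

lemma flat_one {f : E → ℝ} (hf : ContDiffAt ℝ 1 f 0) (h0 : f 0 = 0) :
    ∃ C : ℝ, ∀ᶠ v in 𝓝 (0 : E), |f v| ≤ C * ‖v‖ ^ 1 := by
  obtain ⟨C, hC⟩ := (hf.differentiableAt one_ne_zero).isBigO_sub.bound
  refine ⟨C, ?_⟩
  filter_upwards [hC] with v hv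
  rw [h0, sub_zero, sub_zero, Real.norm_eq_abs] at hv
  rwa [pow_one]

end flat

end Vale.Agent.P207.N3.H387
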