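import Vale.Agent.P207.N3.H391.JAct3
import Vale.Agent.P207.N3.H387.Sum

/-!
# P207, line N3: jets of monomials in new coordinates (helper387)
-/

open Set Filter Topology Metric Asymptotics InnerProductSpace
open scoped ContDiff Gradient RealInnerProductSpace

noncomputable section

namespace Vale.Agent.P207.N3.H387

open Jet H70

/-- the jets of a monomial -/
lemma jet_mono (i j i' j' : ℕ) : jet (mono i j) i' j' = if i' = i ∧ j' = j then 1 else 0 := by
  set K := i + j + (i' + j') + 1 with hK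
  have h : tay K (fun x y => if x = i ∧ y = j then (1 : ℝ) else 0) = mono i j := by
    ext q
    rw [tay_eq_sum, Finset.sum_eq_single (i, j)]
    · simp
    · intro b _ hb
      rw [if_neg, mul_zero]
      rintro ⟨h1, h2⟩
      exact hb (Prod.ext h1 h2)
    · intro hn
      exfalso
      apply hn
      rw [Finset.mem_filter, Finset.mem_product, Finset.mem_range, Finset.mem_range]
      omega
  rw [← h, jet_tay _ _ _ _ (by omega)]

/-- the jets of a finite combination of monomials -/
lemma jet_comb {ι : Type*} (s : Finset ι) (c : ι → ℝ) (x y : ι → ℕ) (i j : ℕ) :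
    jet (fun q => ∑ n ∈ s, c n * mono (x n) (y n) q) i j
      = ∑ n ∈ s, c n * (if i = x n ∧ j = y n then 1 else 0) := by
  rw [jet_sum _ _ _ (fun n _ => (mono_smooth _ _).contDiffAt)]
  simp only [jet_mono]

/-- the jets of a monomial after a lower triangular linear map -/
lemma jet_lin {L : E2 → E2} {m₁ m₂ β : ℝ} (h0 : ∀ q, L q 0 = m₁ * q 0)
    (h1 : ∀ q, L q 1 = β * q 0 + m₂ * q 1) (a b : ℕ × ℕ) :
    jet (fun q => mono b.1 b.2 (L q)) a.1 a.2 = if b.1 + b.2 = a.1 + a.2 ∧ b.1 ≤ a.1 then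
      (a.1.choose (a.1 - b.1) : ℝ) * m₁ ^ b.1 * β ^ (a.1 - b.1) * m₂ ^ a.2 else 0 := by
  have h : (fun q => mono b.1 b.2 (L q)) = fun q => ∑ n ∈ Finset.range (b.2 + 1),
      (((b.1 + n).choose n : ℝ) * m₁ ^ b.1 * β ^ n * m₂ ^ (b.2 - n)) *
        mono (b.1 + n) (b.2 - n) q := by
    ext q
    unfold mono
    rw [h0, h1, add_pow, mul_pow, Finset.mul_sum, Finset.sum_div]
    refine Finset.sum_congr rfl fun n hn => ?_
    rw [Finset.mem_range] at hn
    have e1 : ((b.2.choose n : ℕ) : ℝ) * (n.factorial * (b.2 - n).factorial) = b.2.factorial := by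
      have := Nat.choose_mul_factorial_mul_factorial (n := b.2) (k := n) (by omega)
      rw [mul_assoc] at this
      exact_mod_cast this
    have e2 : (((b.1 + n).choose n : ℕ) : ℝ) * (n.factorial * b.1.factorial)
        = (b.1 + n).factorial := by
      have := Nat.choose_mul_factorial_mul_factorial (n := b.1 + n) (k := n) (by omega)
      rw [mul_assoc, Nat.add_sub_cancel] at this
      exact_mod_cast this
    have f1 : (b.1.factorial : ℝ) ≠ 0 := by exact_mod_cast Nat.factorial_ne_zero _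
    have f2 : (b.2.factorial : ℝ) ≠ 0 := by exact_mod_cast Nat.factorial_ne_zero _
    have f3 : (n.factorial : ℝ) ≠ 0 := by exact_mod_cast Nat.factorial_ne_zero _
    have f4 : ((b.2 - n).factorial : ℝ) ≠ 0 := by exact_mod_cast Nat.factorial_ne_zero _
    have f5 : ((b.1 + n).factorial : ℝ) ≠ 0 := by exact_mod_cast Nat.factorial_ne_zero _
    rw [mul_pow, mul_pow, pow_add, ← e1, ← e2] at *
    have g1 : ((b.2.choose n : ℕ) : ℝ) ≠ 0 := by
      intro h
      rw [h, zero_mul] at f2
      exact f2 rfl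
    have g2 : (((b.1 + n).choose n : ℕ) : ℝ) ≠ 0 := by
      intro h
      rw [h, zero_mul] at f5
      exact f5 rfl
    field_simp
  rw [h, jet_comb]
  split_ifs with hab
  · rw [Finset.sum_eq_single (a.1 - b.1)]
    · have e1 : b.1 + (a.1 - b.1) = a.1 := by omega
      have e2 : b.2 - (a.1 - b.1) = a.2 := by omega
      rw [e1, e2, if_pos ⟨rfl, rfl⟩, mul_one]
    · intro n hn hne
      rw [if_neg, mul_zero]
      omega
    · intro hn
      rw [Finset.mem_range] at hn
      omega
  · refine Finset.sum_eq_zero fun n hn => ?_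
    rw [Finset.mem_range] at hn
    rw [if_neg, mul_zero]
    omega

/-- the jets of a monomial after an upper triangular resonant map -/
lemma jet_res {L : E2 → E2} {m₁ m₂ β : ℝ} {k : ℕ} (h0 : ∀ q, L q 0 = m₁ * q 0 + β * q 1 ^ k)
    (h1 : ∀ q, L q 1 = m₂ * q 1) (hβ : β ≠ 0 → m₁ = m₂ ^ k) (a b : ℕ × ℕ)
    (h : jet (fun q => mono b.1 b.2 (L q)) a.1 a.2 ≠ 0) : tht m₁ m₂ b = tht m₁ m₂ a := by
  have e : (fun q => mono b.1 b.2 (L q)) = fun q => ∑ n ∈ Finset.range (b.1 + 1),
      ((b.1.choose n : ℝ) * m₁ ^ n * β ^ (b.1 - n) * m₂ ^ b.2 *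
        (n.factorial * (k * (b.1 - n) + b.2).factorial) / (b.1.factorial * b.2.factorial)) *
        mono n (k * (b.1 - n) + b.2) q := by
    ext q
    unfold mono
    rw [h0, h1, add_pow, mul_pow, Finset.sum_mul, Finset.sum_div]
    refine Finset.sum_congr rfl fun n hn => ?_
    have f1 : (b.1.factorial : ℝ) ≠ 0 := by exact_mod_cast Nat.factorial_ne_zero _
    have f2 : (b.2.factorial : ℝ) ≠ 0 := by exact_mod_cast Nat.factorial_ne_zero _
    have f3 : (n.factorial : ℝ) ≠ 0 := by exact_mod_cast Nat.factorial_ne_zero _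
    have f4 : ((k * (b.1 - n) + b.2).factorial : ℝ) ≠ 0 := by
      exact_mod_cast Nat.factorial_ne_zero _
    rw [mul_pow, mul_pow, pow_add, ← pow_mul]
    field_simp
  rw [e, jet_comb] at h
  obtain ⟨n, hn, hne⟩ := Finset.exists_ne_zero_of_sum_ne_zero h
  rw [Finset.mem_range] at hn
  split_ifs at hne with hc
  · rw [mul_one] at hne
    have h2 : β ^ (b.1 - n) ≠ 0 := by
      intro h3
      rw [h3] at hne
      simp at hne
    unfold tht
    rw [hc.1, hc.2]
    rcases Nat.eq_zero_or_pos (b.1 - n) with h3 | h3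
    · have h4 : b.1 = n := by omega
      rw [h3, h4, Nat.mul_zero, Nat.zero_add]
    · have h5 : β ≠ 0 := by
        rintro rfl
        rw [zero_pow (by omega)] at h2
        exact h2 rfl
      obtain ⟨l, hl⟩ : ∃ l, b.1 = n + l := ⟨b.1 - n, by omega⟩
      have h6 : b.1 - n = l := by omega
      rw [h6, hl, hβ h5]
      ring
  · rw [mul_zero] at hne
    exact absurd rfl hne

lemma D1_scale {f : E2 → ℝ} (hf : ContDiff ℝ ∞ f) (s : ℝ) (q : E2) :
    D1 (fun q => f (s • q)) q = s * D1 f (s • q) := by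
  unfold D1
  have h : HasFDerivAt (fun q : E2 => f (s • q))
      ((fderiv ℝ f (s • q)).comp (s • ContinuousLinearMap.id ℝ E2)) q :=
    HasFDerivAt.comp (g := f) q (hf.differentiable (by simp) _).hasFDerivAt
      ((hasFDerivAt_id q).const_smul s)
  rw [h.fderiv]
  simp

lemma D2_scale {f : E2 → ℝ} (hf : ContDiff ℝ ∞ f) (s : ℝ) (q : E2) :
    D2 (fun q => f (s • q)) q = s * D2 f (s • q) := by
  unfold D2
  have h : HasFDerivAt (fun q : E2 => f (s • q))
      ((fderiv ℝ f (s • q)).comp (s • ContinuousLinearMap.id ℝ E2)) q :=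
    HasFDerivAt.comp (g := f) q (hf.differentiable (by simp) _).hasFDerivAt
      ((hasFDerivAt_id q).const_smul s)
  rw [h.fderiv]
  simp

lemma smooth_D1' {f : E2 → ℝ} (hf : ContDiff ℝ ∞ f) : ContDiff ℝ ∞ (D1 f) :=
  contDiff_iff_contDiffAt.2 fun q => smooth_D1 (hf.contDiffAt (x := q))

lemma smooth_D2' {f : E2 → ℝ} (hf : ContDiff ℝ ∞ f) : ContDiff ℝ ∞ (D2 f) :=
  contDiff_iff_contDiffAt.2 fun q => smooth_D2 (hf.contDiffAt (x := q))

/-- the jets of a rescaled function -/
lemma jet_scale (s : ℝ) : ∀ (i j : ℕ) {f : E2 → ℝ}, ContDiff ℝ ∞ f →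
    jet (fun q => f (s • q)) i j = s ^ (i + j) * jet f i j := by
  intro i
  induction i with
  | zero =>
    intro j
    induction j with
    | zero =>
      intro f _
      rw [jet_zero, jet_zero, smul_zero, Nat.add_zero, pow_zero, one_mul]
    | succ j ih =>
      intro f hf
      have h1 : ContDiff ℝ ∞ fun q : E2 => f (s • q) := hf.comp (contDiff_const_smul s)
      rw [← jet_D2, ← jet_D2]
      have h2 : D2 (fun q => f (s • q)) = fun q => s * D2 f (s • q) := by
        ext q
        exact D2_scale hf s q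
      rw [h2, jet_const_mul (f := fun q => D2 f (s • q))
        (((smooth_D2' hf).comp (contDiff_const_smul s)).contDiffAt) s, ih (smooth_D2' hf)]
      ring
  | succ i ih =>
    intro j f hf
    have h1 : ContDiff ℝ ∞ fun q : E2 => f (s • q) := hf.comp (contDiff_const_smul s)
    rw [← jet_D1 h1.contDiffAt, ← jet_D1 hf.contDiffAt]
    have h2 : D1 (fun q => f (s • q)) = fun q => s * D1 f (s • q) := by
      ext q
      exact D1_scale hf s q
    rw [h2, jet_const_mul (f := fun q => D1 f (s • q))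
      (((smooth_D1' hf).comp (contDiff_const_smul s)).contDiffAt) s, ih j (smooth_D1' hf)]
    ring

/-- the jets of a monomial after a linear map -/
lemma jet_linear (L : E2 →L[ℝ] E2) (a b : ℕ × ℕ) (h : b.1 + b.2 ≠ a.1 + a.2) :
    jet (fun q => mono b.1 b.2 (L q)) a.1 a.2 = 0 := by
  have h1 : ContDiff ℝ ∞ fun q => mono b.1 b.2 (L q) := (mono_smooth _ _).comp L.contDiff
  have h2 := jet_scale 2 a.1 a.2 h1
  have h3 : (fun q : E2 => mono b.1 b.2 (L ((2 : ℝ) • q)))
      = fun q => (2 : ℝ) ^ (b.1 + b.2) * mono b.1 b.2 (L q) := by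
    ext q
    unfold mono
    rw [map_smul]
    simp only [PiLp.smul_apply, smul_eq_mul]
    rw [mul_pow, mul_pow, pow_add]
    ring
  rw [h3, jet_const_mul h1.contDiffAt] at h2
  have h4 : ((2 : ℝ) ^ (b.1 + b.2) - 2 ^ (a.1 + a.2)) *
      jet (fun q => mono b.1 b.2 (L q)) a.1 a.2 = 0 := by
    rw [sub_mul, h2, sub_self]
  rcases mul_eq_zero.1 h4 with h5 | h5
  · exfalso
    have h6 : (2 : ℝ) ^ (b.1 + b.2) = 2 ^ (a.1 + a.2) := sub_eq_zero.1 h5
    have h7 : (2 : ℕ) ^ (b.1 + b.2) = 2 ^ (a.1 + a.2) := by exact_mod_cast h6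
    exact h (Nat.pow_right_injective le_rfl h7)
  · exact h5

end Vale.Agent.P207.N3.H387
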