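import Vale.Agent.P207.N3.H387.Conj
import Vale.Agent.P207.N3.H391.XBr

/-!
# P207, line N3: the feeds of the two sides (helper387)

`feed_upper` : `M` upper triangular (resonant normal form), `N⁻¹` resonant;
`feed_lower` : `M` lower triangular and linear (the dual side of a Jordan block), `N` linear.
-/

open Set Filter Topology Metric Asymptotics InnerProductSpace MeasureTheory
open scoped ContDiff Gradient RealInnerProductSpace

noncomputable section

namespace Vale.Agent.P207.N3.H387

open Jet H70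

/-- **the feed**, upper triangular case -/
theorem feed_upper {H : Half} (K : ℕ) {m₁ m₂ c κ ℓ : ℝ} {k : ℕ} (hκ0 : 0 < κ) (hℓ0 : 0 < ℓ)
    (h1 : |m₁| = Real.exp (-κ)) (h2 : |m₂| = Real.exp (-ℓ))
    (hres : c ≠ 0 → 1 ≤ k ∧ m₁ = m₂ ^ k)
    (hM : MForm H m₁ m₂ c k) (hN : NRes H m₁ m₂) : Nonempty (H578.Feed H κ ℓ K) := by
  have n1 : m₁ ≠ 0 := by
    rintro rfl
    rw [abs_zero] at h1
    exact absurd h1.symm (Real.exp_ne_zero _)
  have n2 : m₂ ≠ 0 := by
    rintro rfl
    rw [abs_zero] at h2
    exact absurd h2.symm (Real.exp_ne_zero _)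
  obtain ⟨T⟩ := tpart H K hM hN
  obtain ⟨X⟩ := exists_xpart H K n1 n2 hM
  exact feed hκ0 hℓ0 h1 h2 hres hM T X

/-- the exchange of the coordinates -/
def sw : E2 ≃ₗᵢ[ℝ] E2 := LinearIsometryEquiv.piLpCongrLeft 2 ℝ ℝ (Equiv.swap (0 : Fin 2) 1)

lemma sw_zero (q : E2) : sw q 0 = q 1 := by
  simp [sw, LinearIsometryEquiv.piLpCongrLeft_apply, Equiv.piCongrLeft'_apply]

lemma sw_one (q : E2) : sw q 1 = q 0 := by
  simp [sw, LinearIsometryEquiv.piLpCongrLeft_apply, Equiv.piCongrLeft'_apply]

lemma sw_sw (q : E2) : sw (sw q) = q := by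
  ext i
  fin_cases i
  · exact (sw_zero _).trans (sw_one q)
  · exact (sw_one _).trans (sw_zero q)

lemma sw_symm (q : E2) : sw.symm q = sw q := by
  rw [LinearIsometryEquiv.symm_apply_eq, sw_sw]

lemma sw_tendsto : Tendsto sw (𝓝 0) (𝓝 0) := by
  have := sw.continuous.tendsto 0
  rwa [map_zero] at this

lemma mono_sw (i j : ℕ) (q : E2) : mono i j (sw q) = mono j i q := by
  unfold mono
  rw [sw_zero, sw_one]
  ring

/-- the jets after the exchange of the coordinates -/
lemma jet_sw {f : E2 → ℝ} (hf : ContDiffAt ℝ ∞ f 0) (i j : ℕ) :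
    jet (fun q => f (sw q)) i j = jet f j i := by
  have hf' : ContDiffAt ℝ ∞ f (sw 0) := by rwa [map_zero]
  have h1 : ContDiffAt ℝ ∞ (fun q => f (sw q)) 0 :=
    ContDiffAt.comp (g := f) 0 hf' sw.contDiff.contDiffAt
  have h2 : OB (i + j + 1) fun q => f (sw q) - tay (i + j + 1) (jet f) (sw q) := by
    have h3 : OB (i + j + 1) fun q => f q - tay (i + j + 1) (jet f) q := taylor hf _
    exact OB.comp h3 (OB.of_differentiableAt
      ((sw.contDiff (n := 1)).differentiable one_ne_zero 0) (map_zero sw))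
  have h4 : (fun q => tay (i + j + 1) (jet f) (sw q))
      = tay (i + j + 1) (fun x y => jet f y x) := by
    ext q
    rw [tay_eq_sum, tay_eq_sum]
    refine Finset.sum_nbij' (fun b => (b.2, b.1)) (fun b => (b.2, b.1)) ?_ ?_ ?_ ?_ ?_
    · intro b hb
      simp only [Finset.mem_filter, Finset.mem_product, Finset.mem_range] at hb ⊢
      omega
    · intro b hb
      simp only [Finset.mem_filter, Finset.mem_product, Finset.mem_range] at hb ⊢
      omega
    · intro b _
      rfl
    · intro b _
      rfl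
    · intro b _
      simp only [mono_sw]
  have h5 := jet_eq (K := i + j + 1) h1 (tay_smooth (i + j + 1) (fun x y => jet f y x)).contDiffAt
    (by rw [← h4]; exact h2) i j (by omega)
  rw [h5, jet_tay _ _ _ _ (by omega)]

/-- the exchange of the labels -/
def swl : H254.Lb → H254.Lb := Sum.map Prod.swap Prod.swap

lemma swl_swl (b : H254.Lb) : swl (swl b) = b := by
  rcases b with b | b <;> rfl

lemma rj_conj {H : Half} {y : E2} (hy : y ∈ ball (0 : E2) H.r) (b : H254.Lb) :
    H578.rj (conj sw H) b (sw y) = H578.rj H (swl b) y := by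
  have e : sw.symm (sw y) = y := sw.symm_apply_apply y
  rcases b with b | b
  · change jet (fun q => H.S (sw.symm (sw y)) (sw.symm q)) b.1 b.2 = jet (H.S y) b.2 b.1
    have h1 : (fun q => H.S (sw.symm (sw y)) (sw.symm q)) = fun q => H.S y (sw q) := by
      ext q
      rw [e, sw_symm]
    rw [h1]
    exact jet_sw ((H.S_smooth y hy).contDiffAt (ball_mem_nhds 0 H.r_pos)) _ _
  · change jet (fun q => H.X (sw.symm (sw y)) (sw.symm q)) b.1 b.2 = jet (H.X y) b.2 b.1
    have h1 : (fun q => H.X (sw.symm (sw y)) (sw.symm q)) = fun q => H.X y (sw q) := by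
      ext q
      rw [e, sw_symm]
    rw [h1]
    exact jet_sw ((H.X_smooth y hy).contDiffAt (ball_mem_nhds 0 H.r_pos)) _ _

lemma len_swap (a : ℕ × ℕ) : H254.len a.swap = H254.len a := by
  unfold H254.len
  simp only [Prod.fst_swap, Prod.snd_swap]
  omega

/-- the feed of a half from the feed in exchanged coordinates -/
theorem feed_swap {H : Half} {κ : ℝ} {K : ℕ} (F : H578.Feed (conj sw H) κ κ K) :
    Nonempty (H578.Feed H κ κ K) := by
  have key : ∀ j b, swl (F.lab j) = b ↔ F.lab j = swl b := fun j b =>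
    ⟨fun h => by rw [← h, swl_swl], fun h => by rw [h, swl_swl]⟩
  have kl : ∀ a, swl (Sum.inl a) = Sum.inl a.swap := fun a => rfl
  have kr : ∀ a, swl (Sum.inr a) = Sum.inr a.swap := fun a => rfl
  refine ⟨{ J := F.J
            fin := F.fin
            dec := F.dec
            lab := fun j => swl (F.lab j)
            lab_inj := ?_
            lab_inl := ?_
            lab_inr := ?_
            S := F.S
            wt := ?_
            base := ?_
            ord_inl := ?_
            D_inl := ?_
            D_base := ?_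
            ℓ_inl := ?_
            D_inr := ?_
            act := ?_ }⟩
  · intro i j hij
    have h : swl (F.lab i) = swl (F.lab j) := hij
    have h2 := congrArg swl h
    rw [swl_swl, swl_swl] at h2
    exact F.lab_inj h2
  · intro a
    simp only [key, kl]
    rw [F.lab_inl, len_swap]
  · intro a
    simp only [key, kr]
    rw [F.lab_inr, len_swap]
  · intro j
    rw [F.wt j]
    congr 1
    congr 1
    rcases F.lab j with b | b
    · change κ * b.1 + κ * b.2 = κ * b.2 + κ * b.1
      ring
    · change κ * b.1 + κ * b.2 = κ * b.2 + κ * b.1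
      ring
  · intro i j hj
    rw [key, kl] at hj
    have h : (H254.e i).swap = H254.e (1 - i) := by fin_cases i <;> rfl
    rw [h] at hj
    exact F.base _ j hj
  · intro j a hj ha
    rw [key, kl] at hj
    exact F.ord_inl j _ hj (by rwa [len_swap])
  · intro j a hj ha x hx
    rw [key, kl] at hj
    obtain ⟨b, hb, hlt⟩ := F.D_inl j _ hj (by rwa [len_swap]) x hx
    rw [len_swap] at hlt
    refine ⟨b.swap, ?_, by rwa [len_swap]⟩
    rw [key, hb, kl, Prod.swap_swap]
  · intro i j hj x hx
    rw [key, kl] at hj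
    have h : (H254.e i).swap = H254.e (1 - i) := by fin_cases i <;> rfl
    rw [h] at hj
    obtain ⟨b, hb⟩ := F.D_base _ j hj x hx
    exact ⟨b.swap, by rw [key, hb, kl, Prod.swap_swap]⟩
  · intro j a hj x hx
    rw [key, kl] at hj
    obtain ⟨b, hb⟩ := F.ℓ_inl j _ hj x hx
    exact ⟨b.swap, by rw [key, hb, kl, Prod.swap_swap]⟩
  · intro j a hj x hx
    rw [key, kr] at hj
    rcases F.D_inr j _ hj x hx with ⟨b, hb, hlt⟩ | ⟨b, hb, hlt⟩
    · rw [len_swap] at hlt
      exact Or.inl ⟨b.swap, by rw [key, hb, kl, Prod.swap_swap], by rwa [len_swap]⟩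
    · rw [len_swap] at hlt
      exact Or.inr ⟨b.swap, by rw [key, hb, kr, Prod.swap_swap], by rwa [len_swap]⟩
  · have hMt : Tendsto H.M (𝓝 0) (𝓝 0) := by
      have := ((H.M_smooth (mem_ball_self H.r_pos)).continuousAt).tendsto
      rwa [H.M_zero] at this
    filter_upwards [sw_tendsto.eventually F.act, ball_mem_nhds (0 : E2) H.r_pos,
      hMt.eventually (ball_mem_nhds (0 : E2) H.r_pos)] with y h1 hy hMy
    have e1 : (conj sw H).M (sw y) = sw (H.M y) := by
      change sw (H.M (sw.symm (sw y))) = _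
      rw [sw.symm_apply_apply]
    rw [e1] at h1
    have e2 : (fun j => H578.rj (conj sw H) (F.lab j) (sw (H.M y)))
        = fun j => H578.rj H (swl (F.lab j)) (H.M y) := by
      ext j
      exact rj_conj hMy _
    have e3 : (fun j => H578.rj (conj sw H) (F.lab j) (sw y))
        = fun j => H578.rj H (swl (F.lab j)) y := by
      ext j
      exact rj_conj hy _
    rw [e2, e3] at h1
    exact h1

/-- **the feed**, lower triangular linear case -/
theorem feed_lower {H : Half} (K : ℕ) {m c κ : ℝ} (hκ0 : 0 < κ) (h1 : |m| = Real.exp (-κ))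
    (hM : ∀ᶠ p in 𝓝 (0 : E2), H.M p = !₂[m * p 0, c * p 0 + m * p 1])
    (L : E2 →L[ℝ] E2) (hN : ∀ᶠ q in 𝓝 (0 : E2), L (H.N q) = q) :
    Nonempty (H578.Feed H κ κ K) := by
  have hM' : MForm (conj sw H) m m c 1 := by
    filter_upwards [sw_tendsto.eventually hM] with p hp
    change sw (H.M (sw.symm p)) = _
    rw [sw_symm, hp]
    ext i
    fin_cases i
    · change sw _ 0 = m * p 0 + c * p 1 ^ 1
      rw [sw_zero]
      change c * sw p 0 + m * sw p 1 = _
      rw [sw_zero, sw_one, pow_one]
      ring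
    · change sw _ 1 = m * p 1
      rw [sw_one]
      change m * sw p 0 = _
      rw [sw_zero]
  have hN' : NRes (conj sw H) m m := by
    refine nres_linear (((ce sw : E2 →L[ℝ] E2).comp L).comp (ce sw.symm : E2 →L[ℝ] E2)) ?_
    filter_upwards [sw_tendsto.eventually hN] with q hq
    change sw (L (sw.symm (sw (H.N (sw.symm q))))) = q
    rw [sw.symm_apply_apply, sw_symm, hq, sw_sw]
  obtain ⟨F⟩ := feed_upper K hκ0 hκ0 h1 h1 (fun _ => ⟨le_rfl, (pow_one m).symm⟩) hM' hN'
  exact feed_swap F

end Vale.Agent.P207.N3.H387
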