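import Vale.Agent.P207.N3.H387.Mono

/-!
# P207, line N3: the action on the jets of the leaves, in a normal form (helper387)

`MForm H m₁ m₂ c k` : `M p = (m₁ p₁ + c p₂^k, m₂ p₂)` near `0`.
`NRes H m₁ m₂ K` : `N⁻¹` is resonant: the `a`-jet of a monomial `q^b ∘ N⁻¹`, `|b| < |a|`, is zero
unless the multipliers of `a` and `b` are equal.
`tpart` : the formula for `T_a (M y)`.
-/

open Set Filter Topology Metric Asymptotics InnerProductSpace
open scoped ContDiff Gradient RealInnerProductSpace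

noncomputable section

namespace Vale.Agent.P207.N3.H387

open Jet H70

/-- the normal form of the contraction `M` -/
def MForm (H : Half) (m₁ m₂ c : ℝ) (k : ℕ) : Prop :=
  ∀ᶠ p in 𝓝 (0 : E2), H.M p = !₂[m₁ * p 0 + c * p 1 ^ k, m₂ * p 1]

/-- `N⁻¹` is resonant -/
def NRes (H : Half) (m₁ m₂ : ℝ) : Prop :=
  ∃ Ni : E2 → E2, ContDiff ℝ ∞ Ni ∧ (∀ᶠ q in 𝓝 0, Ni (H.N q) = q) ∧
    ∀ a b : ℕ × ℕ, b.1 + b.2 < a.1 + a.2 →
      jet (fun q => mono b.1 b.2 (Ni q)) a.1 a.2 ≠ 0 → tht m₁ m₂ b = tht m₁ m₂ a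

/-- the resonant upper triangular normal form of `N⁻¹` -/
lemma nres_tri {H : Half} {m₁ m₂ β : ℝ} {k : ℕ} (hβ : β ≠ 0 → m₁ = m₂ ^ k)
    (h : ∀ᶠ q in 𝓝 (0 : E2), !₂[m₁ * H.N q 0 + β * H.N q 1 ^ k, m₂ * H.N q 1] = q) :
    NRes H m₁ m₂ := by
  refine ⟨fun q => !₂[m₁ * q 0 + β * q 1 ^ k, m₂ * q 1], ?_, h, ?_⟩
  · rw [contDiff_euclidean]
    intro i
    fin_cases i
    · exact (contDiff_const.mul (coord_smooth 0)).add (contDiff_const.mul ((coord_smooth 1).pow k))
    · exact contDiff_const.mul (coord_smooth 1)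
  · intro a b _ hne
    exact jet_res (fun q => rfl) (fun q => rfl) hβ a b hne

/-- linear `N` -/
lemma nres_linear {H : Half} {m₁ m₂ : ℝ} (L : E2 →L[ℝ] E2)
    (h : ∀ᶠ q in 𝓝 (0 : E2), L (H.N q) = q) : NRes H m₁ m₂ :=
  ⟨L, L.contDiff, h, fun a b hab hne => absurd (jet_linear L a b (by omega)) hne⟩

/-- the transpose of `DM (y)` -/
lemma Mt_form {H : Half} {m₁ m₂ c : ℝ} {k : ℕ} (hM : MForm H m₁ m₂ c k) :
    ∀ᶠ y in 𝓝 (0 : E2), ∀ q, H.Mt y q 0 = m₁ * q 0 ∧
      H.Mt y q 1 = c * k * y 1 ^ (k - 1) * q 0 + m₂ * q 1 := by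
  filter_upwards [hM.eventually_nhds] with y hy q
  have h1 : HasFDerivAt (fun p : E2 => (!₂[m₁ * p 0 + c * p 1 ^ k, m₂ * p 1] : E2))
      (fderiv ℝ H.M y) y := by
    have h2 : DifferentiableAt ℝ (fun p : E2 => (!₂[m₁ * p 0 + c * p 1 ^ k, m₂ * p 1] : E2)) y := by
      have h3 : ContDiff ℝ ∞ (fun p : E2 => (!₂[m₁ * p 0 + c * p 1 ^ k, m₂ * p 1] : E2)) := by
        rw [contDiff_euclidean]
        intro i
        fin_cases i
        · exact (contDiff_const.mul (coord_smooth 0)).add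
            (contDiff_const.mul ((coord_smooth 1).pow k))
        · exact contDiff_const.mul (coord_smooth 1)
      exact h3.differentiable (by simp) y
    have h4 := h2.hasFDerivAt
    have h5 : fderiv ℝ (fun p : E2 => (!₂[m₁ * p 0 + c * p 1 ^ k, m₂ * p 1] : E2)) y
        = fderiv ℝ H.M y := (Filter.EventuallyEq.fderiv_eq (by filter_upwards [hy] with p hp; rw [hp])).symm
    rwa [h5] at h4
  have c0 : HasFDerivAt (fun p : E2 => p 0) (EuclideanSpace.proj 0 : E2 →L[ℝ] ℝ) y :=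
    hasFDerivAt_coord 0 y
  have c1 : HasFDerivAt (fun p : E2 => p 1) (EuclideanSpace.proj 1 : E2 →L[ℝ] ℝ) y :=
    hasFDerivAt_coord 1 y
  have hD0 : ∀ v : E2, (fderiv ℝ H.M y v) 0 = m₁ * v 0 + c * (k * y 1 ^ (k - 1)) * v 1 := by
    intro v
    have e1 := ((EuclideanSpace.proj 0 : E2 →L[ℝ] ℝ).hasFDerivAt).comp y h1
    have e2 := (c0.const_mul m₁).add ((c1.pow k).const_mul c)
    have e3 := e1.unique e2
    have e4 := congrArg (fun L : E2 →L[ℝ] ℝ => L v) e3
    simp only [ContinuousLinearMap.comp_apply, ContinuousLinearMap.add_apply,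
      ContinuousLinearMap.smul_apply, smul_eq_mul, nsmul_eq_mul] at e4
    change (fderiv ℝ H.M y v) 0 = m₁ * v 0 + c * ((k * y 1 ^ (k - 1)) * v 1) at e4
    rw [e4]
    ring
  have hD1 : ∀ v : E2, (fderiv ℝ H.M y v) 1 = m₂ * v 1 := by
    intro v
    have e1 := ((EuclideanSpace.proj 1 : E2 →L[ℝ] ℝ).hasFDerivAt).comp y h1
    have e2 := c1.const_mul m₂
    have e3 := e1.unique e2
    exact congrArg (fun L : E2 →L[ℝ] ℝ => L v) e3
  have key : ∀ v : E2, ⟪H.Mt y q, v⟫ = ⟪q, fderiv ℝ H.M y v⟫ := by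
    intro v
    unfold Half.Mt
    rw [ContinuousLinearMap.adjoint_inner_left]
  have k0 := key Jet.e1
  have k1 := key Jet.e2
  have in1 : ∀ v : E2, ⟪v, Jet.e1⟫ = v 0 := fun v => by simp [Jet.e1, PiLp.inner_apply]
  have in2 : ∀ v : E2, ⟪v, Jet.e2⟫ = v 1 := fun v => by simp [Jet.e2, PiLp.inner_apply]
  have inn : ∀ v w : E2, ⟪v, w⟫ = v 0 * w 0 + v 1 * w 1 := by
    intro v w
    simp only [PiLp.inner_apply, Fin.sum_univ_two, RCLike.inner_apply, conj_trivial]
    ring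
  rw [in1, inn, hD0, hD1, e1_zero, e1_one] at k0
  rw [in2, inn, hD0, hD1, e2_zero, e2_one] at k1
  constructor
  · rw [k0]; ring
  · rw [k1]; ring

/-- the action of `φ` on the jets of the leaves, the part which is not linear in the top jets -/
structure TPart (H : Half) (K : ℕ) (m₁ m₂ c : ℝ) (k : ℕ) where
  r : ℝ
  r_pos : 0 < r
  g : Ix (K + 1) → (Ix (K + 1) → ℝ) → ℝ
  smooth : ∀ a, ContDiffOn ℝ ∞ (g a) (ball 0 r)
  zero : ∀ a, g a 0 = 0
  dep : ∀ a, DependsOn (g a) {b | b.1.1 + b.1.2 < a.1.1 + a.1.2}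
  lin : ∀ a b, fderiv ℝ (g a) 0 (Pi.single b 1) ≠ 0 → tht m₁ m₂ b.1 = tht m₁ m₂ a.1
  act : ∀ᶠ y in 𝓝 (0 : E2), ∀ a : Ix (K + 1), 2 ≤ a.1.1 + a.1.2 →
    jet (H.S (H.M y)) a.1.1 a.1.2 = ∑ b : Ix (K + 1),
      (if b.1.1 + b.1.2 = a.1.1 + a.1.2 ∧ b.1.1 ≤ a.1.1 then
        (a.1.1.choose (a.1.1 - b.1.1) : ℝ) * m₁ ^ b.1.1 * (c * k * y 1 ^ (k - 1)) ^
          (a.1.1 - b.1.1) * m₂ ^ a.1.2 * jet (H.S y) b.1.1 b.1.2 else 0)
      + g a (H.T (K + 1) y)

theorem tpart (H : Half) (K : ℕ) {m₁ m₂ c : ℝ} {k : ℕ} (hM : MForm H m₁ m₂ c k)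
    (hN : NRes H m₁ m₂) : Nonempty (TPart H K m₁ m₂ c k) := by
  obtain ⟨J, hJs, hJe, hJt, -, hJl⟩ := H.jact (K := K + 1) (by omega)
  obtain ⟨Ni, hNi, hNiN, hres⟩ := hN
  have hs : ∀ᶠ u in 𝓝 (0 : Ix (K + 1) → ℝ), ∀ a, ContDiffAt ℝ ∞ (J a) u :=
    eventually_all.2 hJs
  obtain ⟨r, hr, hrs⟩ := Metric.eventually_nhds_iff_ball.1 hs
  have hJ0 : ∀ a, J a 0 = 0 := by
    intro a
    have h1 := hJe.self_of_nhds a
    rw [H.M_zero, H.T_zero] at h1
    rw [← h1]
    exact H.jetS_zero _ _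
  have hlow : ∀ (m : ℕ) (u : Ix (K + 1) → ℝ), ‖low m u‖ ≤ ‖u‖ := by
    intro m u
    refine (pi_norm_le_iff_of_nonneg (norm_nonneg _)).2 fun b => ?_
    unfold low
    split_ifs
    · exact norm_le_pi_norm u b
    · rw [norm_zero]; exact norm_nonneg _
  have hD : ∀ a, HasFDerivAt (fun u => J a (low a.ord u))
      ((fderiv ℝ (J a) 0).comp (fderiv ℝ (low (K := K + 1) a.ord) 0)) 0 := by
    intro a
    have h1 : HasFDerivAt (J a) (fderiv ℝ (J a) 0) (low a.ord 0) := by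
      rw [low_zero]
      exact ((hrs 0 (mem_ball_self hr) a).differentiableAt (by simp)).hasFDerivAt
    exact h1.comp 0 ((low_smooth a.ord).differentiable (by simp) 0).hasFDerivAt
  have hlowlin : ∀ (m : ℕ) (v : Ix (K + 1) → ℝ), fderiv ℝ (low (K := K + 1) m) 0 v = low m v := by
    intro m v
    let Lm : (Ix (K + 1) → ℝ) →ₗ[ℝ] (Ix (K + 1) → ℝ) :=
      { toFun := low m
        map_add' := fun x y => by
          ext b
          simp only [low, Pi.add_apply]
          split_ifs <;> simp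
        map_smul' := fun s x => by
          ext b
          simp only [low, Pi.smul_apply, smul_eq_mul, RingHom.id_apply]
          split_ifs <;> simp }
    have h1 : (low (K := K + 1) m) = (LinearMap.toContinuousLinearMap Lm) := rfl
    rw [h1, ContinuousLinearMap.fderiv]
  refine ⟨⟨r, hr, fun a u => J a (low a.ord u), ?_, ?_, ?_, ?_, ?_⟩⟩
  · intro a u hu
    refine ContDiffAt.contDiffWithinAt ?_
    refine ContDiffAt.comp (g := J a) u (hrs _ ?_ a) (low_smooth _).contDiffAt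
    rw [mem_ball_zero_iff] at hu ⊢
    exact (hlow _ _).trans_lt hu
  · intro a
    rw [low_zero, hJ0]
  · intro a u v huv
    change J a (low a.ord u) = J a (low a.ord v)
    have h1 : low a.ord u = low a.ord v := by
      ext b
      unfold low
      split_ifs with hb
      · exact huv b hb
      · rfl
    rw [h1]
  · intro a b hne
    rw [(hD a).fderiv, ContinuousLinearMap.comp_apply, hlowlin] at hne
    by_cases hab : b.1.1 + b.1.2 < a.1.1 + a.1.2
    · have h1 : low a.ord (Pi.single b (1 : ℝ)) = Pi.single b 1 := by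
        ext x
        unfold low
        split_ifs with hx
        · rfl
        · rw [Pi.single_apply, if_neg]
          rintro rfl
          exact hx hab
      rw [h1, hJl Ni hNi.contDiffAt hNiN] at hne
      refine hres a.1 b.1 hab ?_
      rw [jet_Sf_comp _ hNi.contDiffAt] at hne
      rw [Finset.sum_eq_single b] at hne
      · rw [Pi.single_eq_same, one_mul] at hne
        exact hne
      · intro x _ hx
        rw [Pi.single_eq_of_ne hx, zero_mul]
      · intro hb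
        exact absurd (Finset.mem_univ b) hb
    · exfalso
      have h1 : low a.ord (Pi.single b (1 : ℝ)) = 0 := by
        ext x
        unfold low
        split_ifs with hx
        · rw [Pi.single_apply, if_neg]
          · rfl
          · rintro rfl
            exact hab hx
        · rfl
      rw [h1, map_zero] at hne
      exact hne rfl
  · have htop : ∀ᶠ u in 𝓝 (0 : Ix (K + 1) → ℝ), ∀ a : Ix (K + 1), 2 ≤ a.ord →
        J a u = J a (low a.ord u) + ∑ b : Ix (K + 1), if b.ord = a.ord then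
          u b * jet (fun q => mono b.1.1 b.1.2 (H.Mt (lab u) q)) a.1.1 a.1.2 else 0 := by
      rw [eventually_all]
      intro a
      by_cases ha : 2 ≤ a.ord
      · filter_upwards [hJt a ha] with u hu _
        exact hu
      · exact Eventually.of_forall fun u h => absurd h ha
    filter_upwards [hJe, (H.T_tendsto (K + 1)).eventually htop, Mt_form hM,
      ball_mem_nhds (0 : E2) H.r_pos] with y h1 h2 h3 hyr a ha
    rw [h1 a, h2 a ha, H.lab_T (by omega) hyr, add_comm]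
    congr 1
    refine Finset.sum_congr rfl fun b _ => ?_
    rw [jet_lin (fun q => (h3 q).1) (fun q => (h3 q).2)]
    have hT : H.T (K + 1) y b = jet (H.S y) b.1.1 b.1.2 := rfl
    unfold Jet.Ix.ord
    by_cases hc : b.1.1 + b.1.2 = a.1.1 + a.1.2
    · rw [if_pos hc, hT]
      by_cases hd : b.1.1 ≤ a.1.1
      · rw [if_pos ⟨hc, hd⟩, if_pos ⟨hc, hd⟩]
        ring
      · rw [if_neg (fun h => hd h.2), if_neg (fun h => hd h.2), mul_zero]
    · rw [if_neg hc, if_neg (fun h => hc h.1)]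

end Vale.Agent.P207.N3.H387
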