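import Vale.Agent.P207.N3.H70.Defs
import Vale.Agent.P207.N3.H391.JAct

/-!
# P207, line N3: the triangular system of the jets of a `Half` (helper387)

`JJ K` : the labels, `inl a` for `T_a`, `1 ≤ |a| ≤ K + 1`, and `inr a` for `X_a`, `1 ≤ |a| ≤ K`.
`Dat K` : the multipliers `m₁, m₂`, the resonant coefficient `c` of `M p = (m₁ p₁ + c p₂^k, m₂ p₂)`,
the resonant lower order linear part `nl` and the remaining smooth part `q` of the action on jets.
`Dat.sys` : the triangular system of helper70.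
-/

open Set Filter Topology Metric
open scoped ContDiff

noncomputable section

namespace Vale.Agent.P207.N3.H387

open Jet H70 MvPolynomial

/-- the labels -/
abbrev JJ (K : ℕ) : Type := Ix (K + 1) ⊕ Ix K

/-- the label of `y_i` -/
def yl {K : ℕ} (i : Fin 2) : Ix (K + 1) :=
  ⟨(1 - (i : ℕ), (i : ℕ)), by rw [mem_idx]; fin_cases i <;> simp⟩

lemma yl_one {K : ℕ} : (yl 1 : Ix (K + 1)).1 = (0, 1) := rfl

lemma yl_zero {K : ℕ} : (yl 0 : Ix (K + 1)).1 = (1, 0) := rfl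

/-- the multiplier of the multi-index `a` -/
def tht (m₁ m₂ : ℝ) (a : ℕ × ℕ) : ℝ := m₁ ^ a.1 * m₂ ^ a.2

lemma Ix.one_le {K : ℕ} (a : Ix K) : 1 ≤ a.1.1 + a.1.2 := (mem_idx.1 a.2).1

lemma Ix.le {K : ℕ} (a : Ix K) : a.1.1 + a.1.2 ≤ K := (mem_idx.1 a.2).2

/-- the rank of a label -/
def rk (K : ℕ) : JJ K → ℕ
  | .inl a => (K + 2) * (a.1.1 + a.1.2) + a.1.1
  | .inr a => (K + 2) * (K + 2 + (a.1.1 + a.1.2)) + a.1.1

/-- the variables of the nonlinear part -/
def dd (K : ℕ) : JJ K → Set (JJ K)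
  | .inl a => {j | ∃ b : Ix (K + 1), j = .inl b ∧ (b.1.1 + b.1.2 < a.1.1 + a.1.2 ∨
      (a.1.1 + a.1.2 = 1 ∧ b.1.1 + b.1.2 = 1 ∧ b.1.1 < a.1.1))}
  | .inr a => {j | (∃ b : Ix (K + 1), j = .inl b ∧ b.1.1 + b.1.2 ≤ a.1.1 + a.1.2) ∨
      ∃ b : Ix K, j = .inr b ∧ b.1.1 + b.1.2 < a.1.1 + a.1.2}

/-- the order of the nonlinear part -/
def od (K : ℕ) : JJ K → ℕ
  | .inl _ => 2
  | .inr _ => 1

/-- the variables `y₁`, `y₂` -/
def bs (K : ℕ) : Set (JJ K) := {j | ∃ b : Ix (K + 1), j = .inl b ∧ b.1.1 + b.1.2 = 1}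

/-- the data of the action on jets -/
structure Dat (K : ℕ) where
  m₁ : ℝ
  m₂ : ℝ
  c : ℝ
  k : ℕ
  ne₁ : m₁ ≠ 0
  ne₂ : m₂ ≠ 0
  lt₁ : |m₁| < 1
  lt₂ : |m₂| < 1
  res : c ≠ 0 → 1 ≤ k ∧ m₁ = m₂ ^ k
  nl : Ix (K + 1) → Ix (K + 1) → ℝ
  nl_len : ∀ a b, nl a b ≠ 0 → b.1.1 + b.1.2 < a.1.1 + a.1.2
  nl_res : ∀ a b, nl a b ≠ 0 → tht m₁ m₂ b.1 = tht m₁ m₂ a.1
  q : JJ K → (JJ K → ℝ) → ℝ
  r : ℝ
  r_pos : 0 < r
  q_base : ∀ a : Ix (K + 1), a.1.1 + a.1.2 = 1 → q (.inl a) = 0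
  q_dep : ∀ i, DependsOn (q i) (dd K i)
  q_smooth : ∀ i, ContDiffOn ℝ ∞ (q i) (ball 0 r)
  q_flat : ∀ i, ∃ C : ℝ, ∀ u ∈ ball (0 : JJ K → ℝ) r, |q i u| ≤ C * ‖u‖ ^ od K i

namespace Dat

variable {K : ℕ} (d : Dat K)

/-- the multipliers -/
def θ : JJ K → ℝ
  | .inl a => tht d.m₁ d.m₂ a.1
  | .inr a => tht d.m₁ d.m₂ a.1

/-- the coefficient of `y₂^{(k-1)j} ξ_b`, `b = (a₁ - j, a₂ + j)`, in the `a`-jet of
`ξ ∘ DM(y)ᵀ` -/
def ct (a b : ℕ × ℕ) : ℝ :=
  (a.1.choose (a.1 - b.1) : ℝ) * d.m₁ ^ b.1 * d.m₂ ^ a.2 * (d.c * d.k) ^ (a.1 - b.1)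

/-- the coefficients of the resonant linear part -/
def cc : JJ K → JJ K → ℝ
  | .inl a, .inl b => if b.1.1 + b.1.2 = a.1.1 + a.1.2 then
      (if b.1.1 < a.1.1 then (if a.1.1 + a.1.2 = 1 then d.c else d.ct a.1 b.1) else 0)
      else d.nl a b
  | .inl _, .inr _ => 0
  | .inr a, .inl b => if b.1.1 + b.1.2 = a.1.1 + a.1.2 + 1 ∧ b.1.1 + 1 ≤ a.1.1 then
      (a.1.1.choose (a.1.1 - b.1.1 - 1) : ℝ) * d.m₁ ^ b.1.1 * d.m₂ ^ a.1.2 *
        (d.c * d.k) ^ (a.1.1 - b.1.1 - 1) * (d.c * d.k * (d.k - 1)) * (b.1.1 + 1) else 0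
  | .inr a, .inr b => if b.1.1 + b.1.2 = a.1.1 + a.1.2 ∧ b.1.1 < a.1.1 then d.ct a.1 b.1 else 0

/-- the exponents of `y₂` of the resonant linear part -/
def ex : JJ K → JJ K → ℕ
  | .inl a, .inl b => if b.1.1 + b.1.2 = a.1.1 + a.1.2 then (d.k - 1) * (a.1.1 - b.1.1) else 0
  | .inl _, .inr _ => 0
  | .inr a, .inl b => (d.k - 1) * (a.1.1 - b.1.1 - 1) + (d.k - 2)
  | .inr a, .inr b => (d.k - 1) * (a.1.1 - b.1.1)

/-- the resonant linear part -/
def ll (i j : JJ K) : MvPolynomial (JJ K) ℝ :=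
  monomial (Finsupp.single (Sum.inl (yl 1)) (d.ex i j)) (d.cc i j)

/-- the possible pairs of labels -/
def Pr : JJ K → JJ K → Prop
  | .inl a, .inl b => (b.1.1 + b.1.2 = a.1.1 + a.1.2 ∧ b.1.1 < a.1.1) ∨
      b.1.1 + b.1.2 < a.1.1 + a.1.2
  | .inl _, .inr _ => False
  | .inr a, .inl b => b.1.1 + b.1.2 = a.1.1 + a.1.2 + 1
  | .inr a, .inr b => b.1.1 + b.1.2 = a.1.1 + a.1.2 ∧ b.1.1 < a.1.1

lemma pr_of_cc {i j : JJ K} (h : d.cc i j ≠ 0) : Pr i j := by
  rcases i with a | a <;> rcases j with b | b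
  · simp only [cc, Pr] at h ⊢
    split_ifs at h with h1 h2 h3
    · exact Or.inl ⟨h1, h2⟩
    · exact Or.inl ⟨h1, h2⟩
    · exact absurd rfl h
    · exact Or.inr (d.nl_len a b h)
  · simp [cc] at h
  · simp only [cc, Pr] at h ⊢
    split_ifs at h with h1
    · exact h1.1
    · exact absurd rfl h
  · simp only [cc, Pr] at h ⊢
    split_ifs at h with h1
    · exact h1
    · exact absurd rfl h

lemma cc_of_ll {i j : JJ K} (h : d.ll i j ≠ 0) : d.cc i j ≠ 0 := by
  intro h0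
  exact h (by rw [ll, h0, monomial_zero])

lemma ct_ne {a b : ℕ × ℕ} (h : b.1 < a.1) (h0 : d.ct a b ≠ 0) : d.c ≠ 0 ∧ 1 ≤ d.k := by
  have h1 : (d.c * d.k) ^ (a.1 - b.1) ≠ 0 := right_ne_zero_of_mul h0
  have h2 : d.c * d.k ≠ 0 := by
    intro h3
    rw [h3, zero_pow (by omega)] at h1
    exact h1 rfl
  have h3 := left_ne_zero_of_mul h2
  exact ⟨h3, (d.res h3).1⟩

lemma tht_shift {m₁ m₂ : ℝ} {k : ℕ} (hk : 1 ≤ k) (h : m₁ = m₂ ^ k) {a b : ℕ × ℕ} {n : ℕ}
    (h1 : a.1 = b.1 + n) (h2 : b.2 = a.2 + n) :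
    m₂ ^ ((k - 1) * n) * tht m₁ m₂ b = tht m₁ m₂ a := by
  obtain ⟨k, rfl⟩ : ∃ k', k = k' + 1 := ⟨k - 1, by omega⟩
  unfold tht
  rw [h1, h2, h, Nat.add_sub_cancel]
  ring

/-- exact resonance -/
lemma res_cc {i j : JJ K} (h : d.cc i j ≠ 0) :
    d.θ (Sum.inl (yl 1)) ^ d.ex i j * d.θ j = d.θ i := by
  have e : d.θ (Sum.inl (yl 1)) = d.m₂ := by simp [θ, tht, yl]
  rw [e]
  rcases i with a | a <;> rcases j with b | b
  · simp only [cc, ex, θ] at h ⊢
    split_ifs at h with h1 h2 h3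
    · obtain ⟨h4, h5⟩ := d.res h
      rw [if_pos h1]
      exact tht_shift h4 h5 (by omega) (by omega)
    · obtain ⟨h4, h5⟩ := d.ct_ne h2 h
      rw [if_pos h1]
      exact tht_shift h5 (d.res h4).2 (by omega) (by omega)
    · exact absurd rfl h
    · rw [if_neg h1, pow_zero, one_mul]
      exact d.nl_res a b h
  · simp [cc] at h
  · simp only [cc, ex, θ] at h ⊢
    split_ifs at h with h1
    · obtain ⟨h1, h2⟩ := h1
      have h3 := right_ne_zero_of_mul (left_ne_zero_of_mul h)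
      have h4 : d.c ≠ 0 := left_ne_zero_of_mul (left_ne_zero_of_mul h3)
      have h5 : (d.k : ℝ) ≠ 0 := right_ne_zero_of_mul (left_ne_zero_of_mul h3)
      have h6 : (d.k : ℝ) - 1 ≠ 0 := right_ne_zero_of_mul h3
      have h7 : 2 ≤ d.k := by
        rcases Nat.lt_or_ge d.k 2 with h8 | h8
        · interval_cases hk : d.k
          · simp at h5
          · simp at h6
        · exact h8
      obtain ⟨k, hk⟩ : ∃ k', d.k = k' + 2 := ⟨d.k - 2, by omega⟩
      obtain ⟨n, hn⟩ : ∃ n, a.1.1 = b.1.1 + 1 + n := ⟨a.1.1 - b.1.1 - 1, by omega⟩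
      have hn2 : b.1.2 = a.1.2 + n + 2 := by omega
      have e1 : a.1.1 - b.1.1 - 1 = n := by omega
      rw [e1, hk]
      unfold tht
      rw [hn, hn2, (d.res h4).2, hk]
      have e2 : k + 2 - 1 = k + 1 := by omega
      have e3 : k + 2 - 2 = k := by omega
      rw [e2, e3]
      ring
    · exact absurd rfl h
  · simp only [cc, ex, θ] at h ⊢
    split_ifs at h with h1
    · obtain ⟨h4, h5⟩ := d.ct_ne h1.2 h
      exact tht_shift h5 (d.res h4).2 (by omega) (by omega)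
    · exact absurd rfl h

lemma tht_ne (a : ℕ × ℕ) : tht d.m₁ d.m₂ a ≠ 0 := mul_ne_zero (pow_ne_zero _ d.ne₁) (pow_ne_zero _ d.ne₂)

lemma tht_lt {a : ℕ × ℕ} (ha : 1 ≤ a.1 + a.2) : |tht d.m₁ d.m₂ a| < 1 := by
  unfold tht
  rw [abs_mul, abs_pow, abs_pow]
  rcases Nat.eq_zero_or_pos a.1 with h | h
  · rw [h, pow_zero, one_mul]
    exact pow_lt_one₀ (abs_nonneg _) d.lt₂ (by omega)
  · calc |d.m₁| ^ a.1 * |d.m₂| ^ a.2 ≤ |d.m₁| ^ a.1 * 1 :=
          mul_le_mul_of_nonneg_left (pow_le_one₀ (abs_nonneg _) d.lt₂.le) (by positivity)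
      _ < 1 := by
          rw [mul_one]
          exact pow_lt_one₀ (abs_nonneg _) d.lt₁ (by omega)

lemma rk_lt {a b x y n : ℕ} (h : x + 1 ≤ y) (hb : b < n) : n * x + b < n * y + a := by
  have h1 := Nat.mul_le_mul_left n h
  rw [Nat.mul_add, Nat.mul_one] at h1
  omega

lemma mem_dd_y {i j : JJ K} (h : Pr i j) : Sum.inl (yl 1) ∈ dd K i := by
  rcases i with a | a
  · have ha := Ix.one_le a
    rcases j with b | b
    · have hb := Ix.one_le b
      simp only [Pr] at h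
      refine ⟨yl 1, rfl, ?_⟩
      rw [yl_one]
      simp only
      rcases Nat.lt_or_ge 1 (a.1.1 + a.1.2) with h1 | h1
      · exact Or.inl (by omega)
      · refine Or.inr ⟨by omega, trivial, ?_⟩
        have h2 : 0 < a.1.1 := by omega
        exact h2
    · exact absurd h (by simp [Pr])
  · have ha := Ix.one_le a
    refine Or.inl ⟨yl 1, rfl, ?_⟩
    rw [yl_one]
    simp only
    omega

/-- **the triangular system of the jets** -/
def sys : TriSys (JJ K) where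
  θ := d.θ
  θ_ne := fun j => by rcases j with a | a <;> exact d.tht_ne _
  θ_lt := fun j => by rcases j with a | a <;> exact d.tht_lt (Ix.one_le a)
  rk := rk K
  base := bs K
  D := dd K
  ord := od K
  ℓ := d.ll
  q := d.q
  r := d.r
  r_pos := d.r_pos
  ord_pos := fun i => by rcases i with a | a <;> simp [od]
  D_rk := by
    intro i j hj
    rcases i with a | a
    · obtain ⟨b, rfl, hb⟩ := hj
      have h1 := Ix.le b
      rcases hb with hb | ⟨h2, h3, h4⟩
      · exact rk_lt hb (by omega)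
      · simp only [rk]
        rw [h2, h3]
        omega
    · rcases hj with ⟨b, rfl, hb⟩ | ⟨b, rfl, hb⟩
      · have h1 := Ix.le b
        have h2 := Ix.one_le a
        exact rk_lt (by omega) (by omega)
      · have h1 := Ix.le b
        exact rk_lt (by omega) (by omega)
  D_trans := by
    intro i j hj x hx
    rcases i with a | a
    · obtain ⟨b, rfl, hb⟩ := hj
      obtain ⟨e, rfl, he⟩ := hx
      exact ⟨e, rfl, by omega⟩
    · rcases hj with ⟨b, rfl, hb⟩ | ⟨b, rfl, hb⟩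
      · obtain ⟨e, rfl, he⟩ := hx
        exact Or.inl ⟨e, rfl, by omega⟩
      · rcases hx with ⟨e, rfl, he⟩ | ⟨e, rfl, he⟩
        · exact Or.inl ⟨e, rfl, by omega⟩
        · exact Or.inr ⟨e, rfl, by omega⟩
  D_ℓ := by
    intro i j hj x hx
    have h := d.pr_of_cc (d.cc_of_ll hx)
    rcases i with a | a
    · obtain ⟨b, rfl, hb⟩ := hj
      rcases x with e | e
      · simp only [Pr] at h
        have h1 := Ix.one_le e
        exact ⟨e, rfl, by omega⟩
      · exact absurd h (by simp [Pr])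
    · rcases hj with ⟨b, rfl, hb⟩ | ⟨b, rfl, hb⟩
      · rcases x with e | e
        · simp only [Pr] at h
          exact Or.inl ⟨e, rfl, by omega⟩
        · exact absurd h (by simp [Pr])
      · rcases x with e | e
        · simp only [Pr] at h
          exact Or.inl ⟨e, rfl, by omega⟩
        · simp only [Pr] at h
          exact Or.inr ⟨e, rfl, by omega⟩
  ℓ_rk := by
    intro i j hij
    have h := d.pr_of_cc (d.cc_of_ll hij)
    rcases i with a | a <;> rcases j with b | b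
    · simp only [Pr] at h
      have h1 := Ix.le b
      rcases h with ⟨h2, h3⟩ | h2
      · simp only [rk]
        rw [h2]
        omega
      · exact rk_lt h2 (by omega)
    · exact absurd h (by simp [Pr])
    · simp only [Pr] at h
      have h1 := Ix.le b
      have h2 := Ix.one_le a
      exact rk_lt (by omega) (by omega)
    · simp only [Pr] at h
      simp only [rk]
      rw [h.1]
      omega
  ℓ_D := by
    intro i j hij x hx
    have h := d.pr_of_cc (d.cc_of_ll hij)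
    rcases i with a | a <;> rcases j with b | b
    · simp only [Pr] at h
      obtain ⟨e, rfl, he⟩ := hx
      exact ⟨e, rfl, by omega⟩
    · exact absurd h (by simp [Pr])
    · simp only [Pr] at h
      obtain ⟨e, rfl, he⟩ := hx
      have h2 := Ix.one_le a
      exact Or.inl ⟨e, rfl, by omega⟩
    · simp only [Pr] at h
      rcases hx with ⟨e, rfl, he⟩ | ⟨e, rfl, he⟩
      · exact Or.inl ⟨e, rfl, by omega⟩
      · exact Or.inr ⟨e, rfl, by omega⟩
  ℓ_ord := by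
    intro i j hij
    have h := d.pr_of_cc (d.cc_of_ll hij)
    rcases i with a | a <;> rcases j with b | b <;> simp [od, Pr] at h ⊢
  ℓ_base := by
    intro i hi j hij
    have h := d.pr_of_cc (d.cc_of_ll hij)
    obtain ⟨a, rfl, ha⟩ := hi
    rcases j with b | b
    · simp only [Pr] at h
      have h1 := Ix.one_le b
      exact ⟨b, rfl, by omega⟩
    · exact absurd h (by simp [Pr])
  ℓ_supp := by
    intro i j
    by_cases h0 : d.cc i j = 0
    · rw [ll, h0, monomial_zero]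
      exact Subalgebra.zero_mem _
    · rw [mem_supported, ll, vars_monomial h0]
      intro x hx
      have h1 := Finsupp.support_single_subset hx
      rw [Finset.mem_singleton] at h1
      rw [h1]
      exact ⟨⟨yl 1, rfl, by simp [yl]⟩, mem_dd_y (d.pr_of_cc h0)⟩
  ℓ_res := by
    intro i j α hα
    by_cases h0 : d.cc i j = 0
    · rw [ll, h0, monomial_zero, support_zero] at hα
      exact absurd hα (Finset.notMem_empty _)
    · rw [ll, support_monomial, if_neg h0, Finset.mem_singleton] at hα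
      rw [hα, mult, Finsupp.prod_single_index (h := fun j k => d.θ j ^ k) (pow_zero _)]
      exact d.res_cc h0
  q_base := by
    rintro i ⟨a, rfl, ha⟩
    exact d.q_base a ha
  q_dep := d.q_dep
  q_smooth := d.q_smooth
  q_flat := d.q_flat

lemma sys_F (u : JJ K → ℝ) (i : JJ K) :
    d.sys.F u i = d.θ i * u i + ∑ j, d.cc i j * u (Sum.inl (yl 1)) ^ d.ex i j * u j + d.q i u := by
  have h : ∀ j, eval u (d.ll i j) = d.cc i j * u (Sum.inl (yl 1)) ^ d.ex i j := by
    intro j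
    rw [ll, eval_monomial, Finsupp.prod_single_index (h := fun n e => u n ^ e) (pow_zero _)]
  change d.θ i * u i + ∑ j, eval u (d.ll i j) * u j + d.q i u = _
  simp_rw [h]

end Dat

end Vale.Agent.P207.N3.H387
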